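import Mathlib

namespace Vale.Agent.Lib.P064

open Finset

/-- Number of graphs on the vertex set `Fin n` that are images of `F` under a permutation of
the vertices, that is, the number of copies of `F` (isolated vertices ignored) in the complete
graph on `n` vertices. -/
noncomputable def copies {n : ℕ} (F : SimpleGraph (Fin n)) : ℕ :=
  (Set.range fun σ : Equiv.Perm (Fin n) => F.map σ.toEmbedding).ncard

lemma copies_le_of_code {n : ℕ} (F : SimpleGraph (Fin n)) {β : Type*} (B : Finset β)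
    (code : Equiv.Perm (Fin n) → β) (g : β → SimpleGraph (Fin n))
    (hB : ∀ σ, code σ ∈ B) (hg : ∀ σ, F.map σ.toEmbedding = g (code σ)) :
    copies F ≤ B.card := by
  unfold copies
  have hsub : (Set.range fun σ : Equiv.Perm (Fin n) => F.map σ.toEmbedding) ⊆
      g '' (B : Set β) := by
    rintro _ ⟨σ, rfl⟩
    exact ⟨code σ, hB σ, (hg σ).symm⟩
  have hfin : (g '' (B : Set β)).Finite := (Finset.finite_toSet B).image g
  calc (Set.range fun σ : Equiv.Perm (Fin n) => F.map σ.toEmbedding).ncard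
      ≤ (g '' (B : Set β)).ncard := Set.ncard_le_ncard hsub hfin
    _ ≤ (B : Set β).ncard := Set.ncard_image_le (Finset.finite_toSet B)
    _ = B.card := Set.ncard_coe_finset B

/-- The union of the stars with centre `c` in `R` and leaf set `A c`. -/
def starGraph {n : ℕ} (R : Finset (Fin n)) (A : Fin n → Finset (Fin n)) : SimpleGraph (Fin n) :=
  SimpleGraph.fromRel (fun u w => u ∈ R ∧ w ∈ A u)

lemma copies_starGraph_le {n : ℕ} (R : Finset (Fin n)) (A : Fin n → Finset (Fin n)) (D : ℕ)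
    (hA : ∀ c ∈ R, (A c).card = D) :
    copies (starGraph R A) ≤ (n * n.choose D).choose R.card := by
  classical
  set X : Finset (Fin n × Finset (Fin n)) := (univ : Finset (Fin n)) ×ˢ powersetCard D univ
    with hX
  have hXcard : X.card = n * n.choose D := by
    simp [hX, card_product, card_powersetCard]
  have key := copies_le_of_code (starGraph R A) (powersetCard R.card X)
    (fun σ => R.image (fun c => (σ c, (A c).image σ)))
    (fun code => SimpleGraph.fromRel (fun u w => ∃ p ∈ code, p.1 = u ∧ w ∈ p.2))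
    ?_ ?_
  · rwa [card_powersetCard, hXcard] at key
  · intro σ
    rw [mem_powersetCard]
    constructor
    · intro p hp
      rw [mem_image] at hp
      obtain ⟨c, hc, rfl⟩ := hp
      simp only [hX, mem_product, mem_univ, true_and, mem_powersetCard, subset_univ]
      rw [card_image_of_injective _ σ.injective]
      exact hA c hc
    · apply card_image_of_injOn
      intro c _ c' _ h
      exact σ.injective (Prod.ext_iff.mp h).1
  · intro σ
    ext u w
    rw [SimpleGraph.map_adj, SimpleGraph.fromRel_adj]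
    constructor
    · rintro ⟨u', w', hadj, rfl, rfl⟩
      rw [starGraph, SimpleGraph.fromRel_adj] at hadj
      obtain ⟨hne, h | h⟩ := hadj
      · exact ⟨fun h' => hne (σ.injective h'), Or.inl ⟨(σ u', (A u').image σ),
          mem_image.mpr ⟨u', h.1, rfl⟩, rfl, mem_image.mpr ⟨w', h.2, rfl⟩⟩⟩
      · exact ⟨fun h' => hne (σ.injective h'), Or.inr ⟨(σ w', (A w').image σ),
          mem_image.mpr ⟨w', h.1, rfl⟩, rfl, mem_image.mpr ⟨u', h.2, rfl⟩⟩⟩
    · rintro ⟨hne, h | h⟩
      · obtain ⟨p, hp, rfl, hw⟩ := h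
        rw [mem_image] at hp
        obtain ⟨c, hc, rfl⟩ := hp
        simp only [mem_image] at hw
        obtain ⟨a, ha, rfl⟩ := hw
        refine ⟨c, a, ?_, rfl, rfl⟩
        rw [starGraph, SimpleGraph.fromRel_adj]
        exact ⟨fun h' => hne (by simp [h']), Or.inl ⟨hc, ha⟩⟩
      · obtain ⟨p, hp, rfl, hw⟩ := h
        rw [mem_image] at hp
        obtain ⟨c, hc, rfl⟩ := hp
        simp only [mem_image] at hw
        obtain ⟨a, ha, rfl⟩ := hw
        refine ⟨a, c, ?_, rfl, rfl⟩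
        rw [starGraph, SimpleGraph.fromRel_adj]
        exact ⟨fun h' => hne (by simp [h']), Or.inr ⟨hc, ha⟩⟩

lemma card_edges_starGraph {n : ℕ} (R : Finset (Fin n)) (A : Fin n → Finset (Fin n)) (D : ℕ)
    (hA : ∀ c ∈ R, (A c).card = D) (hout : ∀ c ∈ R, ∀ a ∈ A c, a ∉ R) :
    R.card * D ≤ (starGraph R A).edgeSet.ncard := by
  classical
  rw [Set.ncard_eq_toFinset_card']
  have hcard : (R.sigma A).card = R.card * D := by
    rw [card_sigma, sum_const_nat hA]
  rw [← hcard]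
  apply card_le_card_of_injOn (fun p : (Σ _ : Fin n, Fin n) => s(p.1, p.2))
  · intro p hp
    have hp' := mem_sigma.mp (mem_coe.mp hp)
    rw [mem_coe, Set.mem_toFinset, SimpleGraph.mem_edgeSet, starGraph, SimpleGraph.fromRel_adj]
    refine ⟨?_, Or.inl ⟨hp'.1, hp'.2⟩⟩
    intro h
    exact hout p.1 hp'.1 p.2 hp'.2 (h ▸ hp'.1)
  · intro p hp p' hp' h
    have h1 := mem_sigma.mp (mem_coe.mp hp)
    have h2 := mem_sigma.mp (mem_coe.mp hp')
    simp only [Sym2.eq_iff] at h
    rcases h with ⟨ha, hb⟩ | ⟨ha, hb⟩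
    · cases p; cases p'; simp_all
    · exfalso
      exact hout p'.1 h2.1 p'.2 h2.2 (ha ▸ h1.1)

/-- The graph formed by the edges of `H` with both ends in `T`. -/
def restrict {n : ℕ} (H : SimpleGraph (Fin n)) (T : Finset (Fin n)) : SimpleGraph (Fin n) :=
  SimpleGraph.fromRel (fun u w => H.Adj u w ∧ u ∈ T ∧ w ∈ T)

lemma restrict_adj {n : ℕ} (H : SimpleGraph (Fin n)) (T : Finset (Fin n)) (u w : Fin n) :
    (restrict H T).Adj u w ↔ H.Adj u w ∧ u ∈ T ∧ w ∈ T := by
  rw [restrict, SimpleGraph.fromRel_adj]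
  constructor
  · rintro ⟨_, h | h⟩
    · exact h
    · exact ⟨h.1.symm, h.2.2, h.2.1⟩
  · intro h
    exact ⟨H.ne_of_adj h.1, Or.inl h⟩

lemma restrict_le {n : ℕ} (H : SimpleGraph (Fin n)) (T : Finset (Fin n)) : restrict H T ≤ H := by
  intro u w h
  exact ((restrict_adj H T u w).mp h).1

lemma copies_restrict_le {n : ℕ} (H : SimpleGraph (Fin n)) (T : Finset (Fin n)) :
    copies (restrict H T) ≤ n ^ T.card := by
  classical
  have key := copies_le_of_code (restrict H T) (univ : Finset (T → Fin n))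
    (fun σ => fun x => σ x.1)
    (fun code => SimpleGraph.fromRel
      (fun u w => ∃ a b : T, H.Adj a.1 b.1 ∧ code a = u ∧ code b = w))
    (fun σ => mem_univ _) ?_
  · simpa using key
  · intro σ
    ext u w
    rw [SimpleGraph.map_adj, SimpleGraph.fromRel_adj]
    constructor
    · rintro ⟨u', w', hadj, rfl, rfl⟩
      rw [restrict_adj] at hadj
      exact ⟨fun h' => H.ne_of_adj hadj.1 (σ.injective h'),
        Or.inl ⟨⟨u', hadj.2.1⟩, ⟨w', hadj.2.2⟩, hadj.1, rfl, rfl⟩⟩
    · rintro ⟨hne, h | h⟩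
      · obtain ⟨a, b, hab, rfl, rfl⟩ := h
        exact ⟨a.1, b.1, (restrict_adj H T _ _).mpr ⟨hab, a.2, b.2⟩, rfl, rfl⟩
      · obtain ⟨a, b, hab, rfl, rfl⟩ := h
        exact ⟨b.1, a.1, (restrict_adj H T _ _).mpr ⟨hab.symm, b.2, a.2⟩, rfl, rfl⟩

/-- The expectation hypothesis: every subgraph of `H` has expected count at least one
at density `q`. -/
def Hyp {n : ℕ} (H : SimpleGraph (Fin n)) (q : ℝ) : Prop :=
  ∀ F : SimpleGraph (Fin n), F ≤ H → 1 ≤ (copies F : ℝ) * q ^ F.edgeSet.ncard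

lemma edges_restrict_le {n : ℕ} (H : SimpleGraph (Fin n)) (q : ℝ) (hq0 : 0 ≤ q) (hq1 : q < 1)
    (hqn : (n : ℝ) * q ^ 2 ≤ 1) (hyp : Hyp H q) (T : Finset (Fin n)) :
    (restrict H T).edgeSet.ncard ≤ 2 * T.card := by
  by_contra hcon
  have hcon' : 2 * T.card + 1 ≤ (restrict H T).edgeSet.ncard := by omega
  have h1 := hyp (restrict H T) (restrict_le H T)
  have h2 : ((copies (restrict H T) : ℕ) : ℝ) ≤ (n : ℝ) ^ T.card := by
    exact_mod_cast copies_restrict_le H T
  have h3 : q ^ (restrict H T).edgeSet.ncard ≤ q ^ (2 * T.card + 1) :=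
    pow_le_pow_of_le_one hq0 hq1.le hcon'
  have h4 : (n : ℝ) ^ T.card * q ^ (2 * T.card + 1) = ((n : ℝ) * q ^ 2) ^ T.card * q := by ring
  have h5 : ((n : ℝ) * q ^ 2) ^ T.card ≤ 1 := pow_le_one₀ (by positivity) hqn
  have h6 : (copies (restrict H T) : ℝ) * q ^ (restrict H T).edgeSet.ncard ≤ q := by
    calc (copies (restrict H T) : ℝ) * q ^ (restrict H T).edgeSet.ncard
        ≤ (n : ℝ) ^ T.card * q ^ (2 * T.card + 1) := by gcongr
      _ = ((n : ℝ) * q ^ 2) ^ T.card * q := h4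
      _ ≤ 1 * q := by gcongr
      _ = q := one_mul q
  linarith

lemma star_family_bound {n : ℕ} (H : SimpleGraph (Fin n)) (q : ℝ) (hq0 : 0 ≤ q) (hq1 : q ≤ 1)
    (hyp : Hyp H q)
    (R : Finset (Fin n)) (A : Fin n → Finset (Fin n)) (D : ℕ)
    (hA : ∀ c ∈ R, (A c).card = D) (hAH : ∀ c ∈ R, ∀ a ∈ A c, H.Adj c a)
    (hout : ∀ c ∈ R, ∀ a ∈ A c, a ∉ R) :
    (R.card : ℝ) ≤ Real.exp 1 * ((n : ℝ) * (n.choose D : ℝ) * q ^ D) := by
  rcases Nat.eq_zero_or_pos R.card with h0 | hpos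
  · rw [h0, Nat.cast_zero]; positivity
  set r := R.card with hr
  have hle : starGraph R A ≤ H := by
    intro u w h
    rw [starGraph, SimpleGraph.fromRel_adj] at h
    rcases h with ⟨_, h | h⟩
    · exact hAH u h.1 w h.2
    · exact (hAH w h.1 u h.2).symm
  have h1 := hyp _ hle
  have h2 : ((copies (starGraph R A) : ℕ) : ℝ) ≤ (((n * n.choose D).choose r : ℕ) : ℝ) := by
    exact_mod_cast copies_starGraph_le R A D hA
  have h3 : q ^ (starGraph R A).edgeSet.ncard ≤ q ^ (r * D) :=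
    pow_le_pow_of_le_one hq0 hq1 (card_edges_starGraph R A D hA hout)
  have h4 : (((n * n.choose D).choose r : ℕ) : ℝ) ≤
      ((n * n.choose D : ℕ) : ℝ) ^ r / (r.factorial : ℝ) :=
    Nat.choose_le_pow_div r (n * n.choose D)
  set N : ℝ := (n : ℝ) * (n.choose D : ℝ) with hN
  have h5 : 1 ≤ N ^ r / (r.factorial : ℝ) * q ^ (r * D) := by
    calc (1:ℝ) ≤ (copies (starGraph R A) : ℝ) * q ^ (starGraph R A).edgeSet.ncard := h1
      _ ≤ (((n * n.choose D).choose r : ℕ) : ℝ) * q ^ (r * D) := by gcongr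
      _ ≤ ((n * n.choose D : ℕ) : ℝ) ^ r / (r.factorial : ℝ) * q ^ (r * D) := by gcongr
      _ = N ^ r / (r.factorial : ℝ) * q ^ (r * D) := by rw [hN]; push_cast; ring
  have hfac : (0:ℝ) < (r.factorial : ℝ) := by positivity
  have h6 : (r.factorial : ℝ) ≤ (N * q ^ D) ^ r := by
    have h6a : N ^ r / (r.factorial : ℝ) * q ^ (r * D) = (N * q ^ D) ^ r / (r.factorial : ℝ) := by
      rw [mul_comm r D, pow_mul]; ring
    rw [h6a] at h5
    rwa [le_div_iff₀ hfac, one_mul] at h5
  have h7 : (r : ℝ) ^ r / (r.factorial : ℝ) ≤ Real.exp r :=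
    Real.pow_div_factorial_le_exp r (by positivity) r
  have h8 : (r : ℝ) ^ r ≤ (Real.exp 1 * (N * q ^ D)) ^ r := by
    rw [div_le_iff₀ hfac] at h7
    calc (r : ℝ) ^ r ≤ Real.exp r * (r.factorial : ℝ) := h7
      _ ≤ Real.exp r * (N * q ^ D) ^ r := by gcongr
      _ = (Real.exp 1 * (N * q ^ D)) ^ r := by
        have he : Real.exp (r : ℝ) = Real.exp 1 ^ r := by rw [← Real.exp_nat_mul, mul_one]
        rw [he]; ring
  have hnn : 0 ≤ Real.exp 1 * (N * q ^ D) := by positivity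
  exact (pow_le_pow_iff_left₀ (by positivity) hnn (Nat.pos_iff_ne_zero.mp hpos)).mp h8

lemma exists_indep {n : ℕ} (H : SimpleGraph (Fin n)) :
    ∀ (k : ℕ) (S : Finset (Fin n)), S.card = k →
    (∀ T ⊆ S, (restrict H T).edgeSet.ncard ≤ 2 * T.card) →
    ∃ R ⊆ S, (∀ u ∈ R, ∀ w ∈ R, ¬ H.Adj u w) ∧ S.card ≤ 5 * R.card := by
  classical
  intro k
  induction k using Nat.strong_induction_on with
  | _ k ih =>
    intro S hk hS
    rcases S.eq_empty_or_nonempty with rfl | hne
    · exact ⟨∅, subset_rfl, by simp, by simp⟩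
    have hdeg : ∃ v ∈ S, (S.filter (fun w => H.Adj v w)).card ≤ 4 := by
      by_contra hcon
      have h5 : ∀ v ∈ S, 5 ≤ (S.filter (fun w => H.Adj v w)).card := by
        intro v hv
        by_contra h
        exact hcon ⟨v, hv, by omega⟩
      have hsum := SimpleGraph.sum_degrees_eq_twice_card_edges (restrict H S)
      have he := hS S subset_rfl
      rw [Set.ncard_eq_toFinset_card'] at he
      have hdv : ∀ v ∈ S, (restrict H S).degree v = (S.filter (fun w => H.Adj v w)).card := by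
        intro v hv
        rw [← SimpleGraph.card_neighborFinset_eq_degree]
        congr 1
        ext w
        simp [restrict_adj, hv, and_comm]
      have h1 : ∑ v ∈ S, (restrict H S).degree v ≤ ∑ v, (restrict H S).degree v :=
        sum_le_sum_of_subset (subset_univ S)
      have h2 : ∑ v ∈ S, 5 ≤ ∑ v ∈ S, (restrict H S).degree v := by
        apply sum_le_sum
        intro v hv
        rw [hdv v hv]; exact h5 v hv
      rw [sum_const, smul_eq_mul] at h2
      have hpos := hne.card_pos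
      have hef : (restrict H S).edgeFinset.card = (restrict H S).edgeSet.toFinset.card := by
        congr 1
      omega
    obtain ⟨v, hv, hv4⟩ := hdeg
    set S' := S.filter (fun w => w ≠ v ∧ ¬ H.Adj v w) with hS'
    have hsub : S' ⊆ S := filter_subset _ _
    have hvS' : v ∉ S' := by simp [hS']
    have hlt : S'.card < k := by
      rw [← hk]
      exact card_lt_card ((ssubset_iff_of_subset hsub).mpr ⟨v, hv, hvS'⟩)
    have hcov : S ⊆ insert v (S' ∪ S.filter (fun w => H.Adj v w)) := by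
      intro w hw
      by_cases h1 : w = v
      · simp [h1]
      · by_cases h2 : H.Adj v w
        · simp [hw, h2]
        · simp [hS', hw, h1, h2]
    have hcard : S.card ≤ S'.card + 5 := by
      calc S.card ≤ (insert v (S' ∪ S.filter (fun w => H.Adj v w))).card := card_le_card hcov
        _ ≤ (S' ∪ S.filter (fun w => H.Adj v w)).card + 1 := card_insert_le _ _
        _ ≤ S'.card + (S.filter (fun w => H.Adj v w)).card + 1 :=
            Nat.add_le_add_right (card_union_le _ _) 1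
        _ ≤ S'.card + 5 := by omega
    obtain ⟨R', hR'sub, hR'ind, hR'card⟩ :=
      ih S'.card hlt S' rfl (fun T hT => hS T (hT.trans hsub))
    refine ⟨insert v R', ?_, ?_, ?_⟩
    · exact insert_subset hv (hR'sub.trans hsub)
    · intro u hu w hw
      rw [mem_insert] at hu hw
      rcases hu with rfl | hu <;> rcases hw with rfl | hw
      · exact H.irrefl
      · have h3 := hR'sub hw
        rw [hS', mem_filter] at h3
        exact h3.2.2
      · have h3 := hR'sub hu
        rw [hS', mem_filter] at h3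
        exact fun h => h3.2.2 h.symm
      · exact hR'ind u hu w hw
    · rw [card_insert_of_notMem (fun h => hvS' (hR'sub h))]
      omega

lemma ncard_nbr_lt {n : ℕ} (H : SimpleGraph (Fin n)) (v : Fin n) :
    (H.neighborSet v).ncard < n := by
  classical
  rw [Set.ncard_eq_toFinset_card']
  have h := H.degree_lt_card_verts v
  rw [Fintype.card_fin] at h
  exact h

lemma choose_le_two_pow_mul (n D : ℕ) (hD : D + 1 ≤ n) :
    n.choose D ≤ 2 ^ D * (n - 1).choose D := by
  obtain ⟨m, rfl⟩ : ∃ m, n = m + 1 := ⟨n - 1, by omega⟩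
  simp only [Nat.add_sub_cancel]
  have h1 := Nat.choose_mul_succ_eq m D
  have h2 : (m + 1) ≤ (D + 1) * (m + 1 - D) := by
    obtain ⟨j, rfl⟩ : ∃ j, m = D + j := ⟨m - D, by omega⟩
    have h2a : D + j + 1 - D = j + 1 := by omega
    rw [h2a]; nlinarith
  have h3 : D + 1 ≤ 2 ^ D := Nat.lt_two_pow_self
  have hpos : 0 < m + 1 - D := by omega
  apply Nat.le_of_mul_le_mul_right _ hpos
  calc (m+1).choose D * (m + 1 - D) = m.choose D * (m + 1) := h1.symm
    _ ≤ m.choose D * ((D + 1) * (m + 1 - D)) := Nat.mul_le_mul_left _ h2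
    _ ≤ m.choose D * (2 ^ D * (m + 1 - D)) :=
        Nat.mul_le_mul_left _ (Nat.mul_le_mul_right _ h3)
    _ = 2 ^ D * m.choose D * (m + 1 - D) := by ring

lemma tail_bound {n : ℕ} (H : SimpleGraph (Fin n)) (q : ℝ) (hq0 : 0 ≤ q) (hq1 : q ≤ 1)
    (hyp : Hyp H q) (D : ℕ) (hD : 1 ≤ D) (hDq : 32 * (n : ℝ) * q ≤ D) :
    (((univ.filter (fun v : Fin n => D ≤ (H.neighborSet v).ncard)).card : ℕ) : ℝ) ≤
      32 ^ D * ((n : ℝ) * ((n - 1).choose D : ℝ) * q ^ D) := by
  classical
  set S := univ.filter (fun v : Fin n => D ≤ (H.neighborSet v).ncard) with hS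
  set μ : ℝ := (n : ℝ) * ((n - 1).choose D : ℝ) * q ^ D with hμ
  have hμ0 : 0 ≤ μ := by positivity
  rcases S.eq_empty_or_nonempty with h0 | hne
  · rw [h0, card_empty, Nat.cast_zero]; positivity
  have hex : ∀ v : Fin n, ∃ A : Finset (Fin n),
      (D ≤ (H.neighborSet v).ncard → A.card = D) ∧ ∀ a ∈ A, H.Adj v a := by
    intro v
    by_cases h : D ≤ (H.neighborSet v).ncard
    · rw [Set.ncard_eq_toFinset_card'] at h
      obtain ⟨A, hAsub, hAcard⟩ := exists_subset_card_eq h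
      refine ⟨A, fun _ => hAcard, fun a ha => ?_⟩
      have h' := hAsub ha
      rw [Set.mem_toFinset] at h'
      exact h'
    · exact ⟨∅, fun h' => absurd h' h, by simp⟩
  choose A hA1 hA2 using hex
  obtain ⟨v0, hv0⟩ := hne
  have hv0D : D ≤ (H.neighborSet v0).ncard := (mem_filter.mp hv0).2
  have hDn : D + 1 ≤ n := by have := ncard_nbr_lt H v0; omega
  have hch : ((n.choose D : ℕ) : ℝ) ≤ 2 ^ D * ((n - 1).choose D : ℝ) := by
    exact_mod_cast choose_le_two_pow_mul n D hDn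
  have hstar : ∀ R : Finset (Fin n), R ⊆ S → (∀ u ∈ R, ∀ w ∈ R, ¬ H.Adj u w) →
      (R.card : ℝ) ≤ Real.exp 1 * 2 ^ D * μ := by
    intro R hRS hind
    have h := star_family_bound H q hq0 hq1 hyp R A D
      (fun c hc => hA1 c (mem_filter.mp (hRS hc)).2) (fun c _ a ha => hA2 c a ha)
      (fun c hc a ha haR => hind c hc a haR (hA2 c a ha))
    calc (R.card : ℝ) ≤ Real.exp 1 * ((n : ℝ) * (n.choose D : ℝ) * q ^ D) := h
      _ ≤ Real.exp 1 * ((n : ℝ) * (2 ^ D * ((n - 1).choose D : ℝ)) * q ^ D) := by gcongr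
      _ = Real.exp 1 * 2 ^ D * μ := by rw [hμ]; ring
  have he : Real.exp 1 ≤ 3 := by have := Real.exp_one_lt_d9; linarith
  have h1 : 1 ≤ Real.exp 1 * 2 ^ D * μ := by
    have h := hstar {v0} (by simpa using hv0) (by
      intro u hu w hw
      rw [mem_singleton] at hu hw
      subst hu; subst hw
      exact H.irrefl)
    simpa using h
  have hpow4 : (4:ℝ) ≤ 4 ^ D := by
    calc (4:ℝ) = 4 ^ 1 := (pow_one 4).symm
      _ ≤ 4 ^ D := pow_le_pow_right₀ (by norm_num) hD
  have hpow16 : (16:ℝ) ≤ 16 ^ D := by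
    calc (16:ℝ) = 16 ^ 1 := (pow_one 16).symm
      _ ≤ 16 ^ D := pow_le_pow_right₀ (by norm_num) hD
  have h2pos : (0:ℝ) < 2 ^ D := by positivity
  by_cases hsmall : S.card ≤ 4 ^ D
  · have hs : (S.card : ℝ) ≤ 4 ^ D := by exact_mod_cast hsmall
    have he4 : Real.exp 1 ≤ 4 ^ D := by linarith
    calc (S.card : ℝ) ≤ 4 ^ D * 1 := by rw [mul_one]; exact hs
      _ ≤ 4 ^ D * (Real.exp 1 * 2 ^ D * μ) := by gcongr
      _ ≤ 4 ^ D * (4 ^ D * 2 ^ D * μ) := by gcongr
      _ = 32 ^ D * μ := by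
        rw [show (32:ℝ) = 4 * 4 * 2 by norm_num, mul_pow, mul_pow]; ring
  · have hbig : 4 ^ D < S.card := Nat.lt_of_not_le hsmall
    have hSn : S.card ≤ n := by simpa using card_le_univ S
    have hn4 : (4:ℝ) ^ D < n := by exact_mod_cast lt_of_lt_of_le hbig hSn
    have hnpos : (0:ℝ) < n := lt_of_le_of_lt (by positivity) hn4
    have hqn : (n : ℝ) * q ^ 2 ≤ 1 := by
      by_contra hcon
      have hcon' : 1 < (n : ℝ) * q ^ 2 := lt_of_not_ge hcon
      have hD2 : (D : ℝ) < 2 ^ D := by exact_mod_cast (Nat.lt_two_pow_self : D < 2 ^ D)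
      have h4 : (4:ℝ) ^ D = 2 ^ D * 2 ^ D := by rw [← mul_pow]; norm_num
      have hDD : (D : ℝ) * D < 2 ^ D * 2 ^ D :=
        mul_lt_mul'' hD2 hD2 (by positivity) (by positivity)
      have hsq : (32 * (n:ℝ) * q) ^ 2 ≤ (D:ℝ) ^ 2 :=
        pow_le_pow_left₀ (by positivity) hDq 2
      have hid : (32 * (n:ℝ) * q) ^ 2 = 1024 * (n : ℝ) * ((n : ℝ) * q ^ 2) := by ring
      have hnn : (n : ℝ) < 1024 * (n : ℝ) * ((n : ℝ) * q ^ 2) := by nlinarith
      nlinarith
    have hqlt : q < 1 := by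
      by_contra hcon
      have hq : q = 1 := le_antisymm hq1 (not_lt.mp hcon)
      rw [hq] at hqn
      have h41 : (1:ℝ) ≤ 4 ^ D := by linarith
      linarith
    obtain ⟨R, hRS, hind, hcard⟩ := exists_indep H S.card S rfl
      (fun T _ => edges_restrict_le H q hq0 hqlt hqn hyp T)
    have hR := hstar R hRS hind
    have hcard' : (S.card : ℝ) ≤ 5 * (R.card : ℝ) := by exact_mod_cast hcard
    have h32 : (32:ℝ) ^ D = 16 ^ D * 2 ^ D := by rw [← mul_pow]; norm_num
    have hm : 0 ≤ 2 ^ D * μ := by positivity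
    calc (S.card : ℝ) ≤ 5 * (R.card : ℝ) := hcard'
      _ ≤ 5 * (Real.exp 1 * 2 ^ D * μ) := by gcongr
      _ = 5 * Real.exp 1 * (2 ^ D * μ) := by ring
      _ ≤ 16 ^ D * (2 ^ D * μ) := by
        apply mul_le_mul_of_nonneg_right _ hm
        linarith
      _ = 32 ^ D * μ := by rw [h32]; ring

lemma regimeA {n : ℕ} (H : SimpleGraph (Fin n)) (q : ℝ) (hq0 : 0 ≤ q) (hq1 : q ≤ 1)
    (hyp : Hyp H q) (t : ℕ) (ht : 1 ≤ t) (htq : 32 * (n : ℝ) * q ≤ t) :
    ∑ v : Fin n, (((H.neighborSet v).ncard.choose t : ℕ) : ℝ) ≤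
      (n : ℝ) * ((n - 1).choose t : ℝ) * (88 * q) ^ t := by
  classical
  by_cases htn : n ≤ t
  · have hz : ∀ v : Fin n, (((H.neighborSet v).ncard.choose t : ℕ) : ℝ) = 0 := by
      intro v
      have h := ncard_nbr_lt H v
      rw [Nat.choose_eq_zero_of_lt (by omega)]; simp
    rw [sum_congr rfl (fun v _ => hz v), sum_const_zero]; positivity
  have htn' : t + 1 ≤ n := by omega
  set d : Fin n → ℕ := fun v => (H.neighborSet v).ncard with hd
  set y : ℝ := 32 * q with hy
  set c : ℝ := (n : ℝ) * ((n - 1).choose t : ℝ) * y ^ t with hc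
  have hy0 : 0 ≤ y := by positivity
  have hc0 : 0 ≤ c := by positivity
  have hfib : ∑ v : Fin n, (((d v).choose t : ℕ) : ℝ) =
      ∑ D ∈ range n, ∑ v ∈ univ.filter (fun v => d v = D), (((d v).choose t : ℕ) : ℝ) := by
    rw [sum_fiberwise_of_maps_to]
    intro v _
    exact mem_range.mpr (ncard_nbr_lt H v)
  have hterm : ∀ D ∈ range n,
      ∑ v ∈ univ.filter (fun v => d v = D), (((d v).choose t : ℕ) : ℝ) ≤
      (if t ≤ D then c * (((n - 1 - t).choose (D - t) : ℝ) * y ^ (D - t)) else 0) := by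
    intro D _
    have h1 : ∑ v ∈ univ.filter (fun v => d v = D), (((d v).choose t : ℕ) : ℝ) =
        ((univ.filter (fun v => d v = D)).card : ℝ) * (D.choose t : ℝ) := by
      rw [sum_congr rfl (fun v hv => by rw [(mem_filter.mp hv).2]), sum_const, nsmul_eq_mul]
    rw [h1]
    split_ifs with htD
    · have h2 : ((univ.filter (fun v => d v = D)).card : ℝ) ≤
          ((univ.filter (fun v : Fin n => D ≤ (H.neighborSet v).ncard)).card : ℝ) := by
        exact_mod_cast card_le_card (fun v hv => by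
          rw [mem_filter] at hv ⊢
          exact ⟨hv.1, hv.2.ge⟩)
      have h3 := tail_bound H q hq0 hq1 hyp D (by omega) (by
        have h3a : (t:ℝ) ≤ D := by exact_mod_cast htD
        linarith)
      have h4 : ((n - 1).choose D : ℝ) * (D.choose t : ℝ) =
          ((n - 1).choose t : ℝ) * ((n - 1 - t).choose (D - t) : ℝ) := by
        exact_mod_cast Nat.choose_mul (n := n - 1) htD
      have h5 : y ^ D = y ^ t * y ^ (D - t) := by
        rw [← pow_add]; congr 1; omega
      calc ((univ.filter (fun v => d v = D)).card : ℝ) * (D.choose t : ℝ)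
          ≤ (32 ^ D * ((n : ℝ) * ((n - 1).choose D : ℝ) * q ^ D)) * (D.choose t : ℝ) := by
            gcongr; exact h2.trans h3
        _ = (n : ℝ) * (((n - 1).choose D : ℝ) * (D.choose t : ℝ)) * y ^ D := by
            rw [hy, mul_pow]; ring
        _ = c * (((n - 1 - t).choose (D - t) : ℝ) * y ^ (D - t)) := by
            rw [h4, h5, hc]; ring
    · rw [Nat.choose_eq_zero_of_lt (by omega)]; simp
  have hsum : ∑ D ∈ range n,
      (if t ≤ D then c * (((n - 1 - t).choose (D - t) : ℝ) * y ^ (D - t)) else 0) =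
      c * (1 + y) ^ (n - 1 - t) := by
    rw [← sum_filter]
    have hIco : (range n).filter (fun D => t ≤ D) = Ico t n := by
      ext D; simp [mem_Ico, and_comm]
    rw [hIco, sum_Ico_eq_sum_range, ← mul_sum]
    congr 1
    have hN : n - t = (n - 1 - t) + 1 := by omega
    rw [hN, add_comm 1 y, add_pow]
    apply sum_congr rfl
    intro j _
    rw [Nat.add_sub_cancel_left, one_pow, mul_one, mul_comm]
  have hexp : (1 + y) ^ (n - 1 - t) ≤ Real.exp 1 ^ t := by
    have h1 : 1 + y ≤ Real.exp y := by have := Real.add_one_le_exp y; linarith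
    calc (1 + y) ^ (n - 1 - t) ≤ Real.exp y ^ (n - 1 - t) :=
          pow_le_pow_left₀ (by positivity) h1 _
      _ = Real.exp (((n - 1 - t : ℕ) : ℝ) * y) := (Real.exp_nat_mul y (n - 1 - t)).symm
      _ ≤ Real.exp (t : ℝ) := by
        apply Real.exp_le_exp.mpr
        have hNn : (((n - 1 - t : ℕ)) : ℝ) ≤ n := by exact_mod_cast (by omega : n - 1 - t ≤ n)
        calc (((n - 1 - t : ℕ)) : ℝ) * y ≤ (n : ℝ) * y := by gcongr
          _ = 32 * (n : ℝ) * q := by rw [hy]; ring
          _ ≤ t := htq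
      _ = Real.exp 1 ^ t := by rw [← Real.exp_nat_mul, mul_one]
  have he : Real.exp 1 ≤ 2.75 := by have := Real.exp_one_lt_d9; linarith
  calc ∑ v : Fin n, (((H.neighborSet v).ncard.choose t : ℕ) : ℝ)
      = ∑ D ∈ range n, ∑ v ∈ univ.filter (fun v => d v = D), (((d v).choose t : ℕ) : ℝ) := hfib
    _ ≤ ∑ D ∈ range n,
        (if t ≤ D then c * (((n - 1 - t).choose (D - t) : ℝ) * y ^ (D - t)) else 0) :=
        sum_le_sum hterm
    _ = c * (1 + y) ^ (n - 1 - t) := hsum
    _ ≤ c * Real.exp 1 ^ t := by gcongr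
    _ = (n : ℝ) * ((n - 1).choose t : ℝ) * (y * Real.exp 1) ^ t := by rw [hc, mul_pow]; ring
    _ ≤ (n : ℝ) * ((n - 1).choose t : ℝ) * (88 * q) ^ t := by
        have hfin : y * Real.exp 1 ≤ 88 * q := by rw [hy]; nlinarith
        exact mul_le_mul_of_nonneg_left (pow_le_pow_left₀ (by positivity) hfin t)
          (by positivity)

lemma choose_ratio (a b t : ℕ) (hab : a ≤ b) : a.choose t * b ^ t ≤ b.choose t * a ^ t := by
  induction t with
  | zero => simp
  | succ t ih =>
    have h1 := Nat.choose_succ_right_eq a t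
    have h2 := Nat.choose_succ_right_eq b t
    have h3 : (a - t) * b ≤ (b - t) * a := by
      by_cases h : t ≤ a
      · obtain ⟨a', rfl⟩ : ∃ a', a = t + a' := ⟨a - t, by omega⟩
        obtain ⟨c, rfl⟩ : ∃ c, b = t + a' + c := ⟨b - (t + a'), by omega⟩
        have e1 : t + a' - t = a' := by omega
        have e2 : t + a' + c - t = a' + c := by omega
        rw [e1, e2]; nlinarith
      · have h0 : a - t = 0 := by omega
        rw [h0]; simp
    apply Nat.le_of_mul_le_mul_right _ (Nat.succ_pos t)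
    calc a.choose (t + 1) * b ^ (t + 1) * (t + 1)
        = (a.choose (t + 1) * (t + 1)) * b ^ (t + 1) := by ring
      _ = (a.choose t * b ^ t) * ((a - t) * b) := by rw [h1]; ring
      _ ≤ (b.choose t * a ^ t) * ((b - t) * a) := Nat.mul_le_mul ih h3
      _ = (b.choose (t + 1) * (t + 1)) * a ^ (t + 1) := by rw [h2]; ring
      _ = b.choose (t + 1) * a ^ (t + 1) * (t + 1) := by ring

lemma regimeB {n : ℕ} (H : SimpleGraph (Fin n)) (q : ℝ) (hq0 : 0 ≤ q)
    (hqL : 1000000 * q < 1) (hyp : Hyp H q) (t : ℕ) (ht : 1 ≤ t)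
    (htq : (t : ℝ) < 32 * (n : ℝ) * q) :
    ∑ v : Fin n, (((H.neighborSet v).ncard.choose t : ℕ) : ℝ) ≤
      (n : ℝ) * ((n - 1).choose t : ℝ) * (1000000 * q) ^ t := by
  classical
  have hq1 : q ≤ 1 := by linarith
  set x : ℝ := (n : ℝ) * q with hx
  have hx0 : 0 ≤ x := by positivity
  have ht1 : (1:ℝ) ≤ t := by exact_mod_cast ht
  have hx32 : 1 < 32 * x := by rw [hx]; linarith
  have hn_big : (31250 : ℝ) < n := by
    by_contra hcon
    have hn_le : (n : ℝ) ≤ 31250 := not_lt.mp hcon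
    have h1 : (n : ℝ) * q ≤ 31250 * q := by gcongr
    rw [hx] at hx32
    linarith
  have hn1 : 1 ≤ n := by
    have h : (0:ℝ) < n := by linarith
    exact_mod_cast h
  have hcast : (((n - 1 : ℕ)) : ℝ) = (n : ℝ) - 1 := by
    rw [Nat.cast_sub hn1]; simp
  set D₁ : ℕ := ⌈65536 * x⌉₊ with hD₁
  have hD₁ge : 65536 * x ≤ D₁ := Nat.le_ceil _
  have hD₁lt : (D₁ : ℝ) < 65536 * x + 1 := Nat.ceil_lt_add_one (by positivity)
  have htD : t < D₁ := by
    have h : (t : ℝ) < D₁ := by rw [hx] at hD₁ge hx0; linarith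
    exact_mod_cast h
  have hxq : 65536 * x ≤ 0.065536 * n := by rw [hx]; nlinarith
  have hD₁n : D₁ ≤ n - 1 := by
    have h : (D₁ : ℝ) ≤ (((n - 1 : ℕ)) : ℝ) := by rw [hcast]; linarith
    exact_mod_cast h
  have hpt : ∀ v : Fin n, (H.neighborSet v).ncard.choose t ≤
      D₁.choose t * (1 + (H.neighborSet v).ncard.choose D₁) := by
    intro v
    by_cases h : (H.neighborSet v).ncard < D₁
    · calc (H.neighborSet v).ncard.choose t ≤ D₁.choose t := Nat.choose_le_choose t h.le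
        _ ≤ D₁.choose t * (1 + (H.neighborSet v).ncard.choose D₁) :=
            Nat.le_mul_of_pos_right _ (by omega)
    · have h' : D₁ ≤ (H.neighborSet v).ncard := not_lt.mp h
      have hm := Nat.choose_mul (n := (H.neighborSet v).ncard) (k := D₁) (s := t) htD.le
      have hpos : 1 ≤ ((H.neighborSet v).ncard - t).choose (D₁ - t) :=
        Nat.choose_pos (by omega)
      calc (H.neighborSet v).ncard.choose t = (H.neighborSet v).ncard.choose t * 1 :=
            (mul_one _).symm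
        _ ≤ (H.neighborSet v).ncard.choose t *
            ((H.neighborSet v).ncard - t).choose (D₁ - t) := Nat.mul_le_mul_left _ hpos
        _ = (H.neighborSet v).ncard.choose D₁ * D₁.choose t := hm.symm
        _ ≤ D₁.choose t * (1 + (H.neighborSet v).ncard.choose D₁) := by
            rw [mul_add, mul_one, mul_comm]; exact Nat.le_add_left _ _
  have hsum1 : ∑ v : Fin n, (((H.neighborSet v).ncard.choose t : ℕ) : ℝ) ≤
      (D₁.choose t : ℝ) *
        ((n : ℝ) + ∑ v : Fin n, (((H.neighborSet v).ncard.choose D₁ : ℕ) : ℝ)) := by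
    have hp : ∀ v : Fin n, (((H.neighborSet v).ncard.choose t : ℕ) : ℝ) ≤
        (D₁.choose t : ℝ) * (1 + (((H.neighborSet v).ncard.choose D₁ : ℕ) : ℝ)) := by
      intro v; exact_mod_cast hpt v
    calc ∑ v : Fin n, (((H.neighborSet v).ncard.choose t : ℕ) : ℝ)
        ≤ ∑ v : Fin n, (D₁.choose t : ℝ) *
            (1 + (((H.neighborSet v).ncard.choose D₁ : ℕ) : ℝ)) :=
          sum_le_sum (fun v _ => hp v)
      _ = (D₁.choose t : ℝ) *
          ((n : ℝ) + ∑ v : Fin n, (((H.neighborSet v).ncard.choose D₁ : ℕ) : ℝ)) := by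
          rw [← mul_sum, sum_add_distrib]; simp
  have hA := regimeA H q hq0 hq1 hyp D₁ (by omega) (by rw [hx] at hD₁ge hx0; linarith)
  have hhalf : (500000 * q) ^ t ≤ (1000000 * q) ^ t / 2 := by
    have h1 : (1000000 * q) ^ t = 2 ^ t * (500000 * q) ^ t := by rw [← mul_pow]; ring_nf
    have h2 : (2:ℝ) ≤ 2 ^ t := by
      calc (2:ℝ) = 2 ^ 1 := (pow_one 2).symm
        _ ≤ 2 ^ t := pow_le_pow_right₀ (by norm_num) ht
    have h3 : 0 ≤ (500000 * q) ^ t := by positivity
    rw [h1]; nlinarith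
  have hterm1 : (D₁.choose t : ℝ) ≤ ((n - 1).choose t : ℝ) * (500000 * q) ^ t := by
    have hr := choose_ratio D₁ (n - 1) t hD₁n
    have hr' : (D₁.choose t : ℝ) * (((n - 1 : ℕ)) : ℝ) ^ t ≤
        ((n - 1).choose t : ℝ) * (D₁ : ℝ) ^ t := by exact_mod_cast hr
    have hD₁le : (D₁ : ℝ) ≤ 500000 * q * (((n - 1 : ℕ)) : ℝ) := by
      rw [hcast]
      have h1 : 65568 * ((n:ℝ) * q) ≤ 500000 * q * ((n:ℝ) - 1) := by
        nlinarith [mul_nonneg hq0 (by linarith : (0:ℝ) ≤ 434432 * (n:ℝ) - 500000)]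
      rw [hx] at hD₁lt hx32
      linarith
    have hpow : (D₁ : ℝ) ^ t ≤ (500000 * q) ^ t * (((n - 1 : ℕ)) : ℝ) ^ t := by
      rw [← mul_pow]; exact pow_le_pow_left₀ (by positivity) hD₁le t
    have hpos : (0:ℝ) < (((n - 1 : ℕ)) : ℝ) ^ t := by
      apply pow_pos; rw [hcast]; linarith
    have hfin : (D₁.choose t : ℝ) * (((n - 1 : ℕ)) : ℝ) ^ t ≤
        (((n - 1).choose t : ℝ) * (500000 * q) ^ t) * (((n - 1 : ℕ)) : ℝ) ^ t := by
      calc (D₁.choose t : ℝ) * (((n - 1 : ℕ)) : ℝ) ^ t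
          ≤ ((n - 1).choose t : ℝ) * (D₁ : ℝ) ^ t := hr'
        _ ≤ ((n - 1).choose t : ℝ) * ((500000 * q) ^ t * (((n - 1 : ℕ)) : ℝ) ^ t) := by gcongr
        _ = (((n - 1).choose t : ℝ) * (500000 * q) ^ t) * (((n - 1 : ℕ)) : ℝ) ^ t := by ring
    exact le_of_mul_le_mul_right hfin hpos
  set j := D₁ - t with hj
  have hjD : D₁ = t + j := by omega
  have hchoose : ((n - 1).choose D₁ : ℝ) * (D₁.choose t : ℝ) =
      ((n - 1).choose t : ℝ) * ((n - 1 - t).choose j : ℝ) := by
    exact_mod_cast Nat.choose_mul (n := n - 1) htD.le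
  have hcj : ((n - 1 - t).choose j : ℝ) ≤ (n : ℝ) ^ j / (j.factorial : ℝ) := by
    have h1 : ((n - 1 - t).choose j : ℝ) ≤ (((n - 1 - t : ℕ)) : ℝ) ^ j / (j.factorial : ℝ) :=
      Nat.choose_le_pow_div j (n - 1 - t)
    have h2 : (((n - 1 - t : ℕ)) : ℝ) ≤ n := by exact_mod_cast (by omega : n - 1 - t ≤ n)
    calc ((n - 1 - t).choose j : ℝ) ≤ (((n - 1 - t : ℕ)) : ℝ) ^ j / (j.factorial : ℝ) := h1
      _ ≤ (n : ℝ) ^ j / (j.factorial : ℝ) := by gcongr
  have he : Real.exp 1 ≤ 3 := by have := Real.exp_one_lt_d9; linarith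
  have hkey : (88 * x) ^ j / (j.factorial : ℝ) ≤ Real.exp 1 ^ t := by
    have hfac : (0:ℝ) < (j.factorial : ℝ) := by positivity
    by_cases hcase : 88 * x ≤ t
    · calc (88 * x) ^ j / (j.factorial : ℝ) ≤ Real.exp (88 * x) :=
            Real.pow_div_factorial_le_exp _ (by positivity) j
        _ ≤ Real.exp t := Real.exp_le_exp.mpr hcase
        _ = Real.exp 1 ^ t := by rw [← Real.exp_nat_mul, mul_one]
    · have hcase' : (t : ℝ) < 88 * x := not_le.mp hcase
      have hjr : (j : ℝ) = (D₁ : ℝ) - t := by rw [hj, Nat.cast_sub htD.le]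
      have hjbig : 88 * x * 3 ≤ j := by rw [hjr]; linarith
      have h7 : (j : ℝ) ^ j / (j.factorial : ℝ) ≤ Real.exp j :=
        Real.pow_div_factorial_le_exp j (by positivity) j
      have h8 : (j : ℝ) ^ j ≤ (j.factorial : ℝ) * Real.exp 1 ^ j := by
        rw [div_le_iff₀ hfac] at h7
        rw [← Real.exp_nat_mul, mul_one, mul_comm]; exact h7
      have h9 : (88 * x * Real.exp 1) ^ j ≤ (j : ℝ) ^ j := by
        apply pow_le_pow_left₀ (by positivity)
        calc 88 * x * Real.exp 1 ≤ 88 * x * 3 := by gcongr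
          _ ≤ j := hjbig
      have h10 : (88 * x) ^ j * Real.exp 1 ^ j ≤ (j.factorial : ℝ) * Real.exp 1 ^ j := by
        rw [← mul_pow]; exact h9.trans h8
      have hepos : (0:ℝ) < Real.exp 1 ^ j := by positivity
      have h11 : (88 * x) ^ j ≤ (j.factorial : ℝ) := le_of_mul_le_mul_right h10 hepos
      calc (88 * x) ^ j / (j.factorial : ℝ) ≤ 1 := (div_le_one hfac).mpr h11
        _ ≤ Real.exp 1 ^ t := one_le_pow₀ (by linarith [Real.add_one_le_exp 1])
  have hterm2 : (D₁.choose t : ℝ) * ((n : ℝ) * ((n - 1).choose D₁ : ℝ) * (88 * q) ^ D₁) ≤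
      (n : ℝ) * ((n - 1).choose t : ℝ) * (500000 * q) ^ t := by
    have h1 : (88 * q) ^ D₁ = (88 * q) ^ t * (88 * q) ^ j := by rw [hjD, pow_add]
    have h2 : ((n - 1 - t).choose j : ℝ) * (88 * q) ^ j ≤ Real.exp 1 ^ t := by
      calc ((n - 1 - t).choose j : ℝ) * (88 * q) ^ j
          ≤ ((n : ℝ) ^ j / (j.factorial : ℝ)) * (88 * q) ^ j := by gcongr
        _ = (88 * x) ^ j / (j.factorial : ℝ) := by
            rw [hx, mul_pow, mul_pow, mul_pow]; ring
        _ ≤ Real.exp 1 ^ t := hkey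
    have h3 : (88 * q) ^ t * Real.exp 1 ^ t ≤ (500000 * q) ^ t := by
      rw [← mul_pow]
      apply pow_le_pow_left₀ (by positivity)
      nlinarith
    calc (D₁.choose t : ℝ) * ((n : ℝ) * ((n - 1).choose D₁ : ℝ) * (88 * q) ^ D₁)
        = (n : ℝ) * (((n - 1).choose D₁ : ℝ) * (D₁.choose t : ℝ)) * (88 * q) ^ D₁ := by ring
      _ = (n : ℝ) * ((n - 1).choose t : ℝ) * (88 * q) ^ t *
          (((n - 1 - t).choose j : ℝ) * (88 * q) ^ j) := by rw [hchoose, h1]; ring
      _ ≤ (n : ℝ) * ((n - 1).choose t : ℝ) * (88 * q) ^ t * Real.exp 1 ^ t := by gcongr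
      _ = (n : ℝ) * ((n - 1).choose t : ℝ) * ((88 * q) ^ t * Real.exp 1 ^ t) := by ring
      _ ≤ (n : ℝ) * ((n - 1).choose t : ℝ) * (500000 * q) ^ t := by gcongr
  calc ∑ v : Fin n, (((H.neighborSet v).ncard.choose t : ℕ) : ℝ)
      ≤ (D₁.choose t : ℝ) *
        ((n : ℝ) + ∑ v : Fin n, (((H.neighborSet v).ncard.choose D₁ : ℕ) : ℝ)) := hsum1
    _ ≤ (D₁.choose t : ℝ) *
        ((n : ℝ) + (n : ℝ) * ((n - 1).choose D₁ : ℝ) * (88 * q) ^ D₁) := by gcongr
    _ = (D₁.choose t : ℝ) * n +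
        (D₁.choose t : ℝ) * ((n : ℝ) * ((n - 1).choose D₁ : ℝ) * (88 * q) ^ D₁) := by ring
    _ ≤ ((n - 1).choose t : ℝ) * (500000 * q) ^ t * n +
        (n : ℝ) * ((n - 1).choose t : ℝ) * (500000 * q) ^ t := by gcongr
    _ = 2 * ((n : ℝ) * ((n - 1).choose t : ℝ) * (500000 * q) ^ t) := by ring
    _ ≤ 2 * ((n : ℝ) * ((n - 1).choose t : ℝ) * ((1000000 * q) ^ t / 2)) := by gcongr
    _ = (n : ℝ) * ((n - 1).choose t : ℝ) * (1000000 * q) ^ t := by ring

theorem star_bound (n : ℕ) (H : SimpleGraph (Fin n)) (q : ℝ) (hq : 0 ≤ q) (hyp : Hyp H q)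
    (t : ℕ) :
    ∑ v : Fin n, (((H.neighborSet v).ncard.choose t : ℕ) : ℝ) ≤
      (n : ℝ) * ((n - 1).choose t : ℝ) * (min 1 (1000000 * q)) ^ t := by
  by_cases hL : 1 ≤ 1000000 * q
  · rw [min_eq_left hL, one_pow, mul_one]
    have hp : ∀ v : Fin n, (((H.neighborSet v).ncard.choose t : ℕ) : ℝ) ≤
        ((n - 1).choose t : ℝ) := by
      intro v
      have h := ncard_nbr_lt H v
      exact_mod_cast Nat.choose_le_choose t (by omega : (H.neighborSet v).ncard ≤ n - 1)
    calc ∑ v : Fin n, (((H.neighborSet v).ncard.choose t : ℕ) : ℝ)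
        ≤ ∑ _v : Fin n, ((n - 1).choose t : ℝ) := sum_le_sum (fun v _ => hp v)
      _ = (n : ℝ) * ((n - 1).choose t : ℝ) := by simp
  · have hL' : 1000000 * q < 1 := not_le.mp hL
    rw [min_eq_right hL'.le]
    rcases Nat.eq_zero_or_pos t with rfl | ht
    · simp
    · by_cases hcase : 32 * (n : ℝ) * q ≤ t
      · have hA := regimeA H q hq (by linarith) hyp t ht hcase
        have hpow : (88 * q) ^ t ≤ (1000000 * q) ^ t :=
          pow_le_pow_left₀ (by positivity) (by linarith) t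
        calc ∑ v : Fin n, (((H.neighborSet v).ncard.choose t : ℕ) : ℝ)
            ≤ (n : ℝ) * ((n - 1).choose t : ℝ) * (88 * q) ^ t := hA
          _ ≤ (n : ℝ) * ((n - 1).choose t : ℝ) * (1000000 * q) ^ t := by gcongr
      · exact regimeB H q hq hL' hyp t ht (not_le.mp hcase)

end Vale.Agent.Lib.P064
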