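import Mathlib
import Vale.Agent.Lib.P064.Stars

namespace Vale.Agent.Lib.P064

open Finset

lemma ncard_nbr_eq {n : ℕ} (H : SimpleGraph (Fin n)) (y : Fin n)
    [Fintype {w // H.Adj y w}] :
    Fintype.card {w // H.Adj y w} = (H.neighborSet y).ncard := by
  rw [← Nat.card_eq_fintype_card]
  rfl

open Classical in
lemma card_star_emb {n : ℕ} (H : SimpleGraph (Fin n)) (s : ℕ) :
    (univ.filter (fun ψ : Fin (s + 1) → Fin n =>
      Function.Injective ψ ∧ ∀ j : Fin s, H.Adj (ψ 0) (ψ j.succ))).card ≤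
    s.factorial * ∑ v : Fin n, (H.neighborSet v).ncard.choose s := by
  classical
  have hsub : univ.filter (fun ψ : Fin (s + 1) → Fin n =>
      Function.Injective ψ ∧ ∀ j : Fin s, H.Adj (ψ 0) (ψ j.succ)) ⊆
      (univ : Finset (Σ y : Fin n, (Fin s ↪ {w // H.Adj y w}))).image
        (fun p => (Fin.cons p.1 (fun j => ((p.2 j : {w // H.Adj p.1 w}) : Fin n)) :
          Fin (s + 1) → Fin n)) := by
    intro ψ hψ
    rw [mem_filter] at hψ
    obtain ⟨-, hinj, hadj⟩ := hψ
    rw [mem_image]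
    refine ⟨⟨ψ 0, ⟨fun j => ⟨ψ j.succ, hadj j⟩, ?_⟩⟩, mem_univ _, ?_⟩
    · intro j j' h
      have h' : ψ j.succ = ψ j'.succ := congrArg Subtype.val h
      exact Fin.succ_injective _ (hinj h')
    · funext i
      refine Fin.cases ?_ ?_ i
      · simp
      · intro j
        simp only [Fin.cons_succ]
        rfl
  calc (univ.filter (fun ψ : Fin (s + 1) → Fin n =>
      Function.Injective ψ ∧ ∀ j : Fin s, H.Adj (ψ 0) (ψ j.succ))).card
      ≤ ((univ : Finset (Σ y : Fin n, (Fin s ↪ {w // H.Adj y w}))).image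
        (fun p => (Fin.cons p.1 (fun j => ((p.2 j : {w // H.Adj p.1 w}) : Fin n)) :
          Fin (s + 1) → Fin n))).card := card_le_card hsub
    _ ≤ (univ : Finset (Σ y : Fin n, (Fin s ↪ {w // H.Adj y w}))).card := card_image_le
    _ = ∑ y : Fin n, (Fintype.card {w // H.Adj y w}).descFactorial s := by
      rw [card_univ, Fintype.card_sigma]
      apply sum_congr rfl
      intro y _
      rw [Fintype.card_embedding_eq, Fintype.card_fin]
    _ = s.factorial * ∑ v : Fin n, (H.neighborSet v).ncard.choose s := by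
      rw [mul_sum]
      apply sum_congr rfl
      intro y _
      rw [Nat.descFactorial_eq_factorial_mul_choose, ncard_nbr_eq]

open Classical in
lemma card_forest_emb_le {n : ℕ} {ι : Type} [Fintype ι] (H : SimpleGraph (Fin n))
    (s : ι → ℕ) :
    (univ.filter (fun φ : (Σ i : ι, Fin (s i + 1)) → Fin n =>
      Function.Injective φ ∧
        ∀ (i : ι) (j : Fin (s i)), H.Adj (φ ⟨i, 0⟩) (φ ⟨i, j.succ⟩))).card ≤
    ∏ i : ι, (univ.filter (fun ψ : Fin (s i + 1) → Fin n =>
      Function.Injective ψ ∧ ∀ j : Fin (s i), H.Adj (ψ 0) (ψ j.succ))).card := by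
  rw [← Fintype.card_piFinset]
  apply card_le_card_of_injOn (fun φ => fun i => fun x => φ ⟨i, x⟩)
  · intro φ hφ
    rw [mem_coe, mem_filter] at hφ
    rw [mem_coe, Fintype.mem_piFinset]
    intro i
    rw [mem_filter]
    refine ⟨mem_univ _, ?_, fun j => hφ.2.2 i j⟩
    intro x x' h
    have h' := hφ.2.1 h
    simpa using h'
  · intro φ _ φ' _ h
    funext ⟨i, x⟩
    exact congrFun (congrFun h i) x

lemma pow_mul_factorial_le (n v : ℕ) (hv : v ≤ n) :
    n ^ v * v.factorial ≤ v ^ v * n.descFactorial v := by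
  rw [← Nat.descFactorial_self v, Nat.descFactorial_eq_prod_range,
    Nat.descFactorial_eq_prod_range]
  have h1 : n ^ v = ∏ _i ∈ range v, n := by rw [prod_const, card_range]
  have h2 : v ^ v = ∏ _i ∈ range v, v := by rw [prod_const, card_range]
  rw [h1, h2, ← prod_mul_distrib, ← prod_mul_distrib]
  apply prod_le_prod'
  intro i hi
  rw [mem_range] at hi
  obtain ⟨a, rfl⟩ : ∃ a, v = i + a := ⟨v - i, by omega⟩
  obtain ⟨b, rfl⟩ : ∃ b, n = i + a + b := ⟨n - (i + a), by omega⟩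
  have e1 : i + a - i = a := by omega
  have e2 : i + a + b - i = a + b := by omega
  rw [e1, e2]
  nlinarith [Nat.zero_le (i * b)]

theorem forest_bound_gen (n : ℕ) (H : SimpleGraph (Fin n)) (q : ℝ) (hq : 0 ≤ q)
    (hyp : Hyp H q) {ι : Type} [Fintype ι] (s : ι → ℕ) (hs : ∀ i, 1 ≤ s i) :
    (({φ : (Σ i : ι, Fin (s i + 1)) → Fin n | Function.Injective φ ∧
        ∀ (i : ι) (j : Fin (s i)), H.Adj (φ ⟨i, 0⟩) (φ ⟨i, j.succ⟩)}.ncard : ℕ) : ℝ) ≤
    (n.descFactorial (∑ i, (s i + 1)) : ℝ) * (min 1 (10000000 * q)) ^ (∑ i, s i) := by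
  classical
  rw [Set.ncard_eq_toFinset_card', Set.toFinset_ofPred]
  set v := ∑ i, (s i + 1) with hv
  set e := ∑ i, s i with he
  set X := univ.filter (fun φ : (Σ i : ι, Fin (s i + 1)) → Fin n =>
      Function.Injective φ ∧
        ∀ (i : ι) (j : Fin (s i)), H.Adj (φ ⟨i, 0⟩) (φ ⟨i, j.succ⟩)) with hX
  have hve : v ≤ 2 * e := by
    rw [hv, he, mul_sum]
    apply sum_le_sum
    intro i _
    have := hs i
    omega
  -- bound (a): at most the number of injective maps
  have ha : X.card ≤ n.descFactorial v := by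
    have h1 : X.card ≤ (univ.filter (fun φ : (Σ i : ι, Fin (s i + 1)) → Fin n =>
        Function.Injective φ)).card := by
      apply card_le_card
      intro φ hφ
      rw [hX, mem_filter] at hφ
      rw [mem_filter]
      exact ⟨hφ.1, hφ.2.1⟩
    have h2 : (univ.filter (fun φ : (Σ i : ι, Fin (s i + 1)) → Fin n =>
        Function.Injective φ)).card = n.descFactorial v := by
      rw [← Fintype.card_subtype,
        Fintype.card_congr (Equiv.subtypeInjectiveEquivEmbedding _ _),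
        Fintype.card_embedding_eq, Fintype.card_fin, Fintype.card_sigma]
      congr 1
      rw [hv]
      apply sum_congr rfl
      intro i _
      rw [Fintype.card_fin]
    omega
  by_cases hL : 1 ≤ 10000000 * q
  · rw [min_eq_left hL, one_pow, mul_one]
    exact_mod_cast ha
  have hL' : 10000000 * q < 1 := not_le.mp hL
  rw [min_eq_right hL'.le]
  by_cases hvn : n < v
  · have h0 : X.card = 0 := by
      have := Nat.descFactorial_eq_zero_iff_lt.mpr hvn
      omega
    rw [h0, Nat.cast_zero]; positivity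
  have hvn' : v ≤ n := not_lt.mp hvn
  -- bound (b)
  have hmin : min 1 (1000000 * q) = 1000000 * q := min_eq_right (by linarith)
  have hstar : ∀ i : ι, ((univ.filter (fun ψ : Fin (s i + 1) → Fin n =>
      Function.Injective ψ ∧ ∀ j : Fin (s i), H.Adj (ψ 0) (ψ j.succ))).card : ℝ) ≤
      (n : ℝ) ^ (s i + 1) * (1000000 * q) ^ (s i) := by
    intro i
    have h1 := card_star_emb H (s i)
    have h2 := star_bound n H q hq hyp (s i)
    rw [hmin] at h2
    have h3 : ((s i).factorial : ℝ) * ((n - 1).choose (s i) : ℝ) ≤ (n : ℝ) ^ (s i) := by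
      have h3a : (s i).factorial * (n - 1).choose (s i) ≤ n ^ (s i) := by
        rw [← Nat.descFactorial_eq_factorial_mul_choose]
        exact (Nat.descFactorial_le_pow _ _).trans (Nat.pow_le_pow_left (Nat.sub_le n 1) _)
      exact_mod_cast h3a
    have h4 : (0:ℝ) ≤ (1000000 * q) ^ (s i) := by positivity
    calc ((univ.filter (fun ψ : Fin (s i + 1) → Fin n =>
      Function.Injective ψ ∧ ∀ j : Fin (s i), H.Adj (ψ 0) (ψ j.succ))).card : ℝ)
        ≤ ((s i).factorial : ℝ) * ∑ v : Fin n, (((H.neighborSet v).ncard.choose (s i) : ℕ) : ℝ) := by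
          exact_mod_cast h1
      _ ≤ ((s i).factorial : ℝ) *
          ((n : ℝ) * ((n - 1).choose (s i) : ℝ) * (1000000 * q) ^ (s i)) := by gcongr
      _ = (n : ℝ) * (((s i).factorial : ℝ) * ((n - 1).choose (s i) : ℝ)) *
          (1000000 * q) ^ (s i) := by ring
      _ ≤ (n : ℝ) * (n : ℝ) ^ (s i) * (1000000 * q) ^ (s i) := by gcongr
      _ = (n : ℝ) ^ (s i + 1) * (1000000 * q) ^ (s i) := by ring
  have hb : (X.card : ℝ) ≤ (n : ℝ) ^ v * (1000000 * q) ^ e := by
    have h1 : (X.card : ℝ) ≤ ∏ i : ι, ((univ.filter (fun ψ : Fin (s i + 1) → Fin n =>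
        Function.Injective ψ ∧ ∀ j : Fin (s i), H.Adj (ψ 0) (ψ j.succ))).card : ℝ) := by
      exact_mod_cast card_forest_emb_le H s
    calc (X.card : ℝ) ≤ ∏ i : ι, ((univ.filter (fun ψ : Fin (s i + 1) → Fin n =>
        Function.Injective ψ ∧ ∀ j : Fin (s i), H.Adj (ψ 0) (ψ j.succ))).card : ℝ) := h1
      _ ≤ ∏ i : ι, ((n : ℝ) ^ (s i + 1) * (1000000 * q) ^ (s i)) :=
          prod_le_prod (fun i _ => by positivity) (fun i _ => hstar i)
      _ = (n : ℝ) ^ v * (1000000 * q) ^ e := by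
          rw [prod_mul_distrib, prod_pow_eq_pow_sum, prod_pow_eq_pow_sum]
  -- n^v ≤ exp(v) * descFactorial
  have hfac : (0:ℝ) < (v.factorial : ℝ) := by positivity
  have hnv : (n : ℝ) ^ v ≤ Real.exp 1 ^ v * (n.descFactorial v : ℝ) := by
    have h1 : ((n ^ v * v.factorial : ℕ) : ℝ) ≤ ((v ^ v * n.descFactorial v : ℕ) : ℝ) := by
      exact_mod_cast pow_mul_factorial_le n v hvn'
    push_cast at h1
    have h2 : (v : ℝ) ^ v / (v.factorial : ℝ) ≤ Real.exp v :=
      Real.pow_div_factorial_le_exp v (by positivity) v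
    rw [div_le_iff₀ hfac] at h2
    have h3 : Real.exp (v : ℝ) = Real.exp 1 ^ v := by rw [← Real.exp_nat_mul, mul_one]
    rw [h3] at h2
    have h4 : (n : ℝ) ^ v * (v.factorial : ℝ) ≤
        (Real.exp 1 ^ v * (n.descFactorial v : ℝ)) * (v.factorial : ℝ) := by
      calc (n : ℝ) ^ v * (v.factorial : ℝ) ≤ (v : ℝ) ^ v * (n.descFactorial v : ℝ) := h1
        _ ≤ (Real.exp 1 ^ v * (v.factorial : ℝ)) * (n.descFactorial v : ℝ) := by gcongr
        _ = (Real.exp 1 ^ v * (n.descFactorial v : ℝ)) * (v.factorial : ℝ) := by ring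
    exact le_of_mul_le_mul_right h4 hfac
  have hexp : Real.exp 1 ^ v ≤ (7.4 : ℝ) ^ e := by
    have h1 : Real.exp 1 ^ v ≤ Real.exp 1 ^ (2 * e) :=
      pow_le_pow_right₀ (by linarith [Real.add_one_le_exp 1]) hve
    have h2 : Real.exp 1 ^ (2 * e) = (Real.exp 1 ^ 2) ^ e := by rw [pow_mul]
    have h3 : Real.exp 1 ^ 2 ≤ 7.4 := by
      have := Real.exp_one_lt_d9
      have h0 : 0 < Real.exp 1 := Real.exp_pos 1
      nlinarith
    calc Real.exp 1 ^ v ≤ Real.exp 1 ^ (2 * e) := h1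
      _ = (Real.exp 1 ^ 2) ^ e := h2
      _ ≤ (7.4 : ℝ) ^ e := pow_le_pow_left₀ (by positivity) h3 e
  calc (X.card : ℝ) ≤ (n : ℝ) ^ v * (1000000 * q) ^ e := hb
    _ ≤ (Real.exp 1 ^ v * (n.descFactorial v : ℝ)) * (1000000 * q) ^ e := by gcongr
    _ ≤ ((7.4 : ℝ) ^ e * (n.descFactorial v : ℝ)) * (1000000 * q) ^ e := by gcongr
    _ = (n.descFactorial v : ℝ) * (7.4 * (1000000 * q)) ^ e := by
        have h6 : (7.4 * (1000000 * q)) ^ e = (7.4 : ℝ) ^ e * (1000000 * q) ^ e :=
          mul_pow _ _ _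
        rw [h6]; ring
    _ ≤ (n.descFactorial v : ℝ) * (10000000 * q) ^ e := by
        have h5 : 7.4 * (1000000 * q) ≤ 10000000 * q := by linarith
        exact mul_le_mul_of_nonneg_left (pow_le_pow_left₀ (by positivity) h5 e)
          (by positivity)

theorem forest_bound (n : ℕ) (H : SimpleGraph (Fin n)) (q : ℝ) (hq : 0 ≤ q) (hyp : Hyp H q)
    (k : ℕ) (s : Fin k → ℕ) (hs : ∀ i, 1 ≤ s i) :
    (({φ : (Σ i : Fin k, Fin (s i + 1)) → Fin n | Function.Injective φ ∧
        ∀ (i : Fin k) (j : Fin (s i)), H.Adj (φ ⟨i, 0⟩) (φ ⟨i, j.succ⟩)}.ncard : ℕ) : ℝ) ≤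
    (n.descFactorial (∑ i, (s i + 1)) : ℝ) * (min 1 (10000000 * q)) ^ (∑ i, s i) :=
  forest_bound_gen n H q hq hyp s hs

end Vale.Agent.Lib.P064
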