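import Mathlib
import Vale.Agent.Lib.P064.Forests

namespace Vale.Agent.Lib.P064

open Finset

/-- Number of subgraphs of `H` that are copies of `F`, that is, images of `F` under a
permutation of the vertex set that are contained in `H`. -/
noncomputable def subCopies {n : ℕ} (H F : SimpleGraph (Fin n)) : ℕ :=
  {G : SimpleGraph (Fin n) | G ≤ H ∧ ∃ σ : Equiv.Perm (Fin n), G = F.map σ.toEmbedding}.ncard

lemma map_perm_adj {n : ℕ} (F : SimpleGraph (Fin n)) (σ : Equiv.Perm (Fin n)) (u w : Fin n) :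
    (F.map σ.toEmbedding).Adj u w ↔ F.Adj (σ.symm u) (σ.symm w) := by
  rw [SimpleGraph.map_adj]
  constructor
  · rintro ⟨u', w', h, rfl, rfl⟩
    simpa using h
  · intro h
    exact ⟨σ.symm u, σ.symm w, h, by simp, by simp⟩

lemma map_perm_mul {n : ℕ} (F : SimpleGraph (Fin n)) (σ τ : Equiv.Perm (Fin n)) :
    F.map (σ * τ).toEmbedding = (F.map τ.toEmbedding).map σ.toEmbedding := by
  ext u w
  rw [map_perm_adj, map_perm_adj, map_perm_adj]
  simp [Equiv.Perm.mul_def]

lemma map_perm_one {n : ℕ} (F : SimpleGraph (Fin n)) :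
    F.map (1 : Equiv.Perm (Fin n)).toEmbedding = F := by
  ext u w
  rw [map_perm_adj]
  exact Iff.rfl

open Classical in
lemma orbit_count {n : ℕ} (F : SimpleGraph (Fin n)) (P : SimpleGraph (Fin n) → Prop) :
    {G : SimpleGraph (Fin n) | P G ∧ ∃ σ : Equiv.Perm (Fin n), G = F.map σ.toEmbedding}.ncard *
      (univ.filter (fun τ : Equiv.Perm (Fin n) => F.map τ.toEmbedding = F)).card =
    (univ.filter (fun σ : Equiv.Perm (Fin n) => P (F.map σ.toEmbedding))).card := by
  set S := univ.filter (fun σ : Equiv.Perm (Fin n) => P (F.map σ.toEmbedding)) with hS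
  set stab := (univ.filter (fun τ : Equiv.Perm (Fin n) => F.map τ.toEmbedding = F)).card
    with hstab
  set O : Finset (SimpleGraph (Fin n)) := S.image (fun σ => F.map σ.toEmbedding) with hO
  have hset : {G : SimpleGraph (Fin n) | P G ∧
      ∃ σ : Equiv.Perm (Fin n), G = F.map σ.toEmbedding} = (O : Set _) := by
    ext G
    rw [hO, coe_image]
    constructor
    · rintro ⟨hP, σ, rfl⟩
      exact ⟨σ, mem_coe.mpr (mem_filter.mpr ⟨mem_univ _, hP⟩), rfl⟩
    · rintro ⟨σ, hσ, rfl⟩
      exact ⟨(mem_filter.mp (mem_coe.mp hσ)).2, σ, rfl⟩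
  have hfib : ∀ G ∈ O, (S.filter (fun σ => F.map σ.toEmbedding = G)).card = stab := by
    intro G hG
    rw [hO, mem_image] at hG
    obtain ⟨σ₀, hσ₀, rfl⟩ := hG
    have hP := (mem_filter.mp hσ₀).2
    apply card_bij (fun σ _ => σ₀⁻¹ * σ)
    · intro σ hσ
      rw [mem_filter] at hσ ⊢
      refine ⟨mem_univ _, ?_⟩
      rw [map_perm_mul, hσ.2, ← map_perm_mul, inv_mul_cancel, map_perm_one]
    · intro σ _ σ' _ h
      exact mul_left_cancel h
    · intro τ hτ
      rw [mem_filter] at hτ
      refine ⟨σ₀ * τ, ?_, by simp⟩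
      rw [mem_filter, mem_filter]
      have h1 : F.map (σ₀ * τ).toEmbedding = F.map σ₀.toEmbedding := by
        rw [map_perm_mul, hτ.2]
      refine ⟨⟨mem_univ _, ?_⟩, h1⟩
      rw [h1]; exact hP
  rw [hset, Set.ncard_coe_finset,
    card_eq_sum_card_fiberwise (f := fun σ => F.map σ.toEmbedding) (s := S) (t := O)
      (fun σ hσ => mem_image_of_mem _ hσ), sum_const_nat hfib]

open Classical in
lemma card_perm_fix {n : ℕ} {α : Type} [Fintype α] (e : α → Fin n)
    (he : Function.Injective e) :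
    (univ.filter (fun τ : Equiv.Perm (Fin n) => ∀ a, τ (e a) = e a)).card =
      (n - Fintype.card α).factorial := by
  have h1 : (univ.filter (fun τ : Equiv.Perm (Fin n) => ∀ a, τ (e a) = e a)).card =
      Fintype.card {f : Equiv.Perm (Fin n) // ∀ x, ¬ (x ∉ Set.range e) → f x = x} := by
    rw [Fintype.card_subtype]
    congr 1
    ext τ
    simp only [mem_filter, mem_univ, true_and, not_not, Set.mem_range]
    constructor
    · rintro h x ⟨a, rfl⟩
      exact h a
    · intro h a
      exact h (e a) ⟨a, rfl⟩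
  rw [h1, ← Fintype.card_congr (Equiv.Perm.subtypeEquivSubtypePerm (fun x => x ∉ Set.range e)),
    Fintype.card_perm]
  congr 1
  rw [Fintype.card_subtype_compl, Fintype.card_fin]
  congr 1
  exact Set.card_range_of_injective he

open Classical in
lemma card_perm_comp_le {n : ℕ} {α : Type} [Fintype α] (e : α → Fin n)
    (he : Function.Injective e) (𝒢 : Finset (α → Fin n)) :
    (univ.filter (fun σ : Equiv.Perm (Fin n) => (fun a => σ (e a)) ∈ 𝒢)).card ≤
      (n - Fintype.card α).factorial * 𝒢.card := by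
  set S := univ.filter (fun σ : Equiv.Perm (Fin n) => (fun a => σ (e a)) ∈ 𝒢) with hS
  have h1 := card_le_mul_card_image (f := fun σ : Equiv.Perm (Fin n) => (fun a => σ (e a))) S
    ((n - Fintype.card α).factorial) ?_
  · calc S.card ≤ (n - Fintype.card α).factorial *
          (S.image (fun σ : Equiv.Perm (Fin n) => (fun a => σ (e a)))).card := h1
      _ ≤ (n - Fintype.card α).factorial * 𝒢.card := by
        apply Nat.mul_le_mul_left
        apply card_le_card
        intro φ hφ
        rw [mem_image] at hφ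
        obtain ⟨σ, hσ, rfl⟩ := hφ
        exact (mem_filter.mp hσ).2
  · intro φ hφ
    rw [mem_image] at hφ
    obtain ⟨σ₀, hσ₀, rfl⟩ := hφ
    rw [← card_perm_fix e he]
    apply card_le_card_of_injOn (fun σ => σ₀⁻¹ * σ)
    · intro σ hσ
      rw [mem_coe, mem_filter] at hσ
      rw [mem_coe, mem_filter]
      refine ⟨mem_univ _, fun a => ?_⟩
      have h2 := congrFun hσ.2 a
      simp only [Equiv.Perm.mul_apply]
      rw [h2]
      simp
    · intro σ _ σ' _ h
      exact mul_left_cancel h

lemma star_forest_structure {n : ℕ} (F : SimpleGraph (Fin n))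
    (hF : ∀ u w : Fin n, F.Adj u w →
      (F.neighborSet u).ncard = 1 ∨ (F.neighborSet w).ncard = 1) :
    ∃ (ι : Type) (_ : Fintype ι) (s : ι → ℕ) (e : (Σ i : ι, Fin (s i + 1)) → Fin n),
      (∀ i, 1 ≤ s i) ∧ Function.Injective e ∧
      (∀ (i : ι) (j : Fin (s i)), F.Adj (e ⟨i, 0⟩) (e ⟨i, j.succ⟩)) ∧
      F.edgeSet.ncard ≤ ∑ i, s i := by
  classical
  set N : Fin n → Finset (Fin n) := fun v => F.neighborFinset v with hN
  have hmemN : ∀ v x, x ∈ N v ↔ F.Adj v x := fun v x => SimpleGraph.mem_neighborFinset F v x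
  have hdeg : ∀ v, (F.neighborSet v).ncard = (N v).card := by
    intro v
    rw [Set.ncard_eq_toFinset_card']
    rfl
  have hF' : ∀ u w : Fin n, F.Adj u w → (N u).card = 1 ∨ (N w).card = 1 := by
    intro u w h
    have h1 := hF u w h
    rw [hdeg, hdeg] at h1
    exact h1
  have huniq : ∀ v x y, (N v).card = 1 → F.Adj v x → F.Adj v y → x = y := by
    intro v x y hc hx hy
    obtain ⟨z, hz⟩ := card_eq_one.mp hc
    have h1 : x ∈ N v := (hmemN v x).mpr hx
    have h2 : y ∈ N v := (hmemN v y).mpr hy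
    rw [hz, mem_singleton] at h1 h2
    rw [h1, h2]
  have htwo : ∀ v x y, F.Adj v x → F.Adj v y → x ≠ y → 2 ≤ (N v).card := by
    intro v x y hx hy hne
    exact one_lt_card.mpr ⟨x, (hmemN v x).mpr hx, y, (hmemN v y).mpr hy, hne⟩
  have hpos : ∀ v x, F.Adj v x → 1 ≤ (N v).card := by
    intro v x hx
    exact card_pos.mpr ⟨x, (hmemN v x).mpr hx⟩
  set R : Finset (Fin n) := univ.filter (fun v => 2 ≤ (N v).card ∨
    ((N v).card = 1 ∧ ∃ w, F.Adj v w ∧ (N w).card = 1 ∧ v < w)) with hR
  have hRmem : ∀ v, v ∈ R ↔ (2 ≤ (N v).card ∨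
      ((N v).card = 1 ∧ ∃ w, F.Adj v w ∧ (N w).card = 1 ∧ v < w)) := by
    intro v
    rw [hR, mem_filter]
    simp
  -- leaves are not centres
  have ha : ∀ c ∈ R, ∀ a, F.Adj c a → a ∉ R := by
    intro c hc a hca haR
    rw [hRmem] at hc haR
    rcases hc with hc2 | ⟨hc1, w, hcw, hw1, hlt⟩
    · have ha1 : (N a).card = 1 := by
        rcases hF' c a hca with h | h
        · omega
        · exact h
      rcases haR with h | ⟨_, w, haw, hw1, _⟩
      · omega
      · have hwc : w = c := huniq a w c ha1 haw hca.symm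
        rw [hwc] at hw1
        omega
    · have hwa : w = a := huniq c w a hc1 hcw hca
      rw [hwa] at hw1 hlt
      rcases haR with h | ⟨_, w', haw', _, hlt'⟩
      · omega
      · have hw'c : w' = c := huniq a w' c hw1 haw' hca.symm
        rw [hw'c] at hlt'
        exact absurd hlt (not_lt.mpr hlt'.le)
  -- distinct centres have disjoint leaf sets
  have hb : ∀ c ∈ R, ∀ c' ∈ R, ∀ a, F.Adj c a → F.Adj c' a → c = c' := by
    intro c hc c' hc' a hca hc'a
    by_contra hne
    have ha2 : 2 ≤ (N a).card := htwo a c c' hca.symm hc'a.symm hne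
    have hc1 : (N c).card = 1 := by
      rcases hF' c a hca with h | h
      · exact h
      · omega
    have hc'' := (hRmem c).mp hc
    rcases hc'' with h | ⟨_, w, hcw, hw1, _⟩
    · omega
    · have hwa : w = a := huniq c w a hc1 hcw hca
      rw [hwa] at hw1
      omega
  -- every edge has a centre
  have hd : ∀ u w, F.Adj u w → (u ∈ R ∨ w ∈ R) := by
    intro u w huw
    by_cases hu2 : 2 ≤ (N u).card
    · exact Or.inl ((hRmem u).mpr (Or.inl hu2))
    by_cases hw2 : 2 ≤ (N w).card
    · exact Or.inr ((hRmem w).mpr (Or.inl hw2))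
    have hu1 : (N u).card = 1 := by have := hpos u w huw; omega
    have hw1 : (N w).card = 1 := by have := hpos w u huw.symm; omega
    rcases lt_or_gt_of_ne (F.ne_of_adj huw) with hlt | hlt
    · exact Or.inl ((hRmem u).mpr (Or.inr ⟨hu1, w, huw, hw1, hlt⟩))
    · exact Or.inr ((hRmem w).mpr (Or.inr ⟨hw1, u, huw.symm, hu1, hlt⟩))
  have hRpos : ∀ c ∈ R, 1 ≤ (N c).card := by
    intro c hc
    rcases (hRmem c).mp hc with h | ⟨h, _⟩ <;> omega
  refine ⟨{c // c ∈ R}, inferInstance, fun c => (N c.1).card,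
    fun p => Fin.cases (motive := fun _ => Fin n) p.1.1
      (fun j => (((N p.1.1).equivFin).symm j).1) p.2, ?_, ?_, ?_, ?_⟩
  · intro c
    exact hRpos c.1 c.2
  · rintro ⟨c, x⟩ ⟨c', x'⟩ h
    induction x using Fin.cases with
    | zero =>
      induction x' using Fin.cases with
      | zero =>
        simp only [Fin.cases_zero] at h
        have hcc : c = c' := Subtype.ext h
        subst hcc
        rfl
      | succ j' =>
        simp only [Fin.cases_zero, Fin.cases_succ] at h
        exfalso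
        have hmem : (((N c'.1).equivFin).symm j').1 ∈ N c'.1 := (((N c'.1).equivFin).symm j').2
        rw [← h] at hmem
        exact ha c'.1 c'.2 c.1 ((hmemN _ _).mp hmem) c.2
    | succ j =>
      induction x' using Fin.cases with
      | zero =>
        simp only [Fin.cases_zero, Fin.cases_succ] at h
        exfalso
        have hmem : (((N c.1).equivFin).symm j).1 ∈ N c.1 := (((N c.1).equivFin).symm j).2
        rw [h] at hmem
        exact ha c.1 c.2 c'.1 ((hmemN _ _).mp hmem) c'.2
      | succ j' =>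
        simp only [Fin.cases_succ] at h
        have hmem : (((N c.1).equivFin).symm j).1 ∈ N c.1 := (((N c.1).equivFin).symm j).2
        have hmem' : (((N c'.1).equivFin).symm j').1 ∈ N c'.1 :=
          (((N c'.1).equivFin).symm j').2
        rw [← h] at hmem'
        have hcc : c = c' := Subtype.ext
          (hb c.1 c.2 c'.1 c'.2 _ ((hmemN _ _).mp hmem) ((hmemN _ _).mp hmem'))
        subst hcc
        have hjj : j = j' := ((N c.1).equivFin).symm.injective (Subtype.ext h)
        subst hjj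
        rfl
  · intro c j
    simp only [Fin.cases_zero, Fin.cases_succ]
    exact (hmemN _ _).mp (((N c.1).equivFin).symm j).2
  · rw [Set.ncard_eq_toFinset_card']
    have hsum : ∑ c : {c // c ∈ R}, (N c.1).card = ∑ c ∈ R, (N c).card :=
      Finset.sum_coe_sort R (fun c => (N c).card)
    rw [hsum, ← card_sigma]
    have hsub : F.edgeSet.toFinset ⊆
        (R.sigma N).image (fun p : (Σ _ : Fin n, Fin n) => s(p.1, p.2)) := by
      intro ed hed
      rw [Set.mem_toFinset] at hed
      induction ed using Sym2.ind with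
      | _ u w =>
        rw [SimpleGraph.mem_edgeSet] at hed
        rw [mem_image]
        rcases hd u w hed with hu | hw
        · exact ⟨⟨u, w⟩, mem_sigma.mpr ⟨hu, (hmemN u w).mpr hed⟩, rfl⟩
        · exact ⟨⟨w, u⟩, mem_sigma.mpr ⟨hw, (hmemN w u).mpr hed.symm⟩, Sym2.eq_swap⟩
    exact (card_le_card hsub).trans card_image_le

open Classical in
lemma perm_count_le {n : ℕ} (H F : SimpleGraph (Fin n)) (q : ℝ) (hq : 0 ≤ q) (hyp : Hyp H q)
    (hF : ∀ u w : Fin n, F.Adj u w →
      (F.neighborSet u).ncard = 1 ∨ (F.neighborSet w).ncard = 1) :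
    ((univ.filter (fun σ : Equiv.Perm (Fin n) => F.map σ.toEmbedding ≤ H)).card : ℝ) ≤
      (n.factorial : ℝ) * (min 1 (10000000 * q)) ^ F.edgeSet.ncard := by
  obtain ⟨ι, hι, s, e, hs, he, hadj, hcard⟩ := star_forest_structure F hF
  set m : ℝ := min 1 (10000000 * q) with hm
  have hm0 : 0 ≤ m := le_min zero_le_one (by positivity)
  have hm1 : m ≤ 1 := min_le_left _ _
  set 𝒢 : Finset ((Σ i : ι, Fin (s i + 1)) → Fin n) := univ.filter (fun φ =>
      Function.Injective φ ∧ ∀ (i : ι) (j : Fin (s i)), H.Adj (φ ⟨i, 0⟩) (φ ⟨i, j.succ⟩))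
    with h𝒢
  have h1 : (univ.filter (fun σ : Equiv.Perm (Fin n) => F.map σ.toEmbedding ≤ H)).card ≤
      (univ.filter (fun σ : Equiv.Perm (Fin n) => (fun a => σ (e a)) ∈ 𝒢)).card := by
    apply card_le_card
    intro σ hσ
    rw [mem_filter] at hσ ⊢
    refine ⟨mem_univ _, ?_⟩
    rw [h𝒢, mem_filter]
    refine ⟨mem_univ _, σ.injective.comp he, fun i j => ?_⟩
    apply hσ.2
    rw [SimpleGraph.map_adj]
    exact ⟨_, _, hadj i j, rfl, rfl⟩
  have h2 := card_perm_comp_le e he 𝒢
  have hv : Fintype.card (Σ i : ι, Fin (s i + 1)) = ∑ i, (s i + 1) := by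
    rw [Fintype.card_sigma]
    apply sum_congr rfl
    intro i _
    rw [Fintype.card_fin]
  rw [hv] at h2
  set v := ∑ i, (s i + 1) with hvdef
  have h3 : ((𝒢.card : ℕ) : ℝ) ≤ (n.descFactorial v : ℝ) * m ^ (∑ i, s i) := by
    have h3a := forest_bound_gen n H q hq hyp s hs
    rw [Set.ncard_eq_toFinset_card', Set.toFinset_ofPred] at h3a
    convert h3a using 3
  have h4 : m ^ (∑ i, s i) ≤ m ^ F.edgeSet.ncard := pow_le_pow_of_le_one hm0 hm1 hcard
  by_cases hvn : v ≤ n
  · have h5 : (n - v).factorial * n.descFactorial v = n.factorial :=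
      Nat.factorial_mul_descFactorial hvn
    calc ((univ.filter (fun σ : Equiv.Perm (Fin n) => F.map σ.toEmbedding ≤ H)).card : ℝ)
        ≤ (((n - v).factorial * 𝒢.card : ℕ) : ℝ) := by exact_mod_cast h1.trans h2
      _ = ((n - v).factorial : ℝ) * (𝒢.card : ℝ) := by push_cast; ring
      _ ≤ ((n - v).factorial : ℝ) * ((n.descFactorial v : ℝ) * m ^ (∑ i, s i)) := by gcongr
      _ = (n.factorial : ℝ) * m ^ (∑ i, s i) := by rw [← h5]; push_cast; ring
      _ ≤ (n.factorial : ℝ) * m ^ F.edgeSet.ncard := by gcongr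
  · have h0 : n.descFactorial v = 0 := Nat.descFactorial_eq_zero_iff_lt.mpr (not_le.mp hvn)
    have h𝒢0 : 𝒢.card = 0 := by
      rw [h0] at h3
      have h6 : ((𝒢.card : ℕ) : ℝ) ≤ 0 := by simpa using h3
      have h7 : 𝒢.card ≤ 0 := by exact_mod_cast h6
      omega
    have h8 : (univ.filter (fun σ : Equiv.Perm (Fin n) => F.map σ.toEmbedding ≤ H)).card = 0 := by
      have h9 := h1.trans h2
      rw [h𝒢0] at h9
      omega
    rw [h8, Nat.cast_zero]; positivity

theorem threshold_bound (n : ℕ) (H : SimpleGraph (Fin n))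
    (hH : ∀ u w : Fin n, H.Adj u w →
      (H.neighborSet u).ncard = 1 ∨ (H.neighborSet w).ncard = 1)
    (p : ℝ) (hp : 0 ≤ p)
    (hE : ∀ F : SimpleGraph (Fin n), F ≤ H → 1 / 2 ≤ (copies F : ℝ) * p ^ F.edgeSet.ncard)
    (F : SimpleGraph (Fin n)) (hFH : F ≤ H) :
    (subCopies H F : ℝ) ≤ (copies F : ℝ) * (min 1 (20000000 * p)) ^ F.edgeSet.ncard := by
  classical
  have hyp : Hyp H (2 * p) := by
    intro F' hF'
    have h1 := hE F' hF'
    rcases Nat.eq_zero_or_pos F'.edgeSet.ncard with h0 | hpos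
    · rw [h0, pow_zero, mul_one]
      have hc : 1 ≤ copies F' := by
        unfold copies
        rw [Nat.one_le_iff_ne_zero, Ne, Set.ncard_eq_zero (Set.finite_range _)]
        exact (Set.range_nonempty _).ne_empty
      exact_mod_cast hc
    · have h2 : (2:ℝ) ≤ 2 ^ F'.edgeSet.ncard := by
        calc (2:ℝ) = 2 ^ 1 := (pow_one 2).symm
          _ ≤ 2 ^ F'.edgeSet.ncard := pow_le_pow_right₀ (by norm_num) hpos
      have h3 : (copies F' : ℝ) * (2 * p) ^ F'.edgeSet.ncard =
          2 ^ F'.edgeSet.ncard * ((copies F' : ℝ) * p ^ F'.edgeSet.ncard) := by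
        rw [mul_pow]; ring
      rw [h3]
      have h4 : (0:ℝ) ≤ (copies F' : ℝ) * p ^ F'.edgeSet.ncard := by positivity
      nlinarith
  have hF : ∀ u w : Fin n, F.Adj u w →
      (F.neighborSet u).ncard = 1 ∨ (F.neighborSet w).ncard = 1 := by
    intro u w huw
    have hle : ∀ v, (F.neighborSet v).ncard ≤ (H.neighborSet v).ncard := fun v =>
      Set.ncard_le_ncard (fun x hx => hFH hx) (Set.toFinite _)
    have hpos : ∀ v x, F.Adj v x → 1 ≤ (F.neighborSet v).ncard := by
      intro v x hx
      apply Nat.one_le_iff_ne_zero.mpr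
      intro h0
      rw [Set.ncard_eq_zero (Set.toFinite _)] at h0
      have hxm : x ∈ F.neighborSet v := hx
      rw [h0] at hxm
      exact hxm
    rcases hH u w (hFH huw) with h | h
    · left
      have h5 := hle u
      have h6 := hpos u w huw
      omega
    · right
      have h5 := hle w
      have h6 := hpos w u huw.symm
      omega
  have hcount := perm_count_le H F (2 * p) (by positivity) hyp hF
  have h20 : (10000000 : ℝ) * (2 * p) = 20000000 * p := by ring
  rw [h20] at hcount
  set m : ℝ := min 1 (20000000 * p) with hm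
  have ho1 := orbit_count F (fun G => G ≤ H)
  have ho2 := orbit_count F (fun _ => True)
  set stab := (univ.filter (fun τ : Equiv.Perm (Fin n) => F.map τ.toEmbedding = F)).card
    with hstab
  have hstab_pos : 0 < stab := by
    rw [hstab]
    exact card_pos.mpr ⟨1, mem_filter.mpr ⟨mem_univ _, map_perm_one F⟩⟩
  have hsub : {G : SimpleGraph (Fin n) | G ≤ H ∧
      ∃ σ : Equiv.Perm (Fin n), G = F.map σ.toEmbedding}.ncard = subCopies H F := rfl
  have hcop : {G : SimpleGraph (Fin n) | True ∧
      ∃ σ : Equiv.Perm (Fin n), G = F.map σ.toEmbedding}.ncard = copies F := by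
    unfold copies
    congr 1
    ext G
    constructor
    · rintro ⟨-, σ, rfl⟩; exact ⟨σ, rfl⟩
    · rintro ⟨σ, rfl⟩; exact ⟨trivial, σ, rfl⟩
  have hall : ∀ (inst : DecidablePred fun _σ : Equiv.Perm (Fin n) => True),
      (@Finset.filter _ (fun _σ : Equiv.Perm (Fin n) => True) inst univ).card = n.factorial := by
    intro inst
    have hu : @Finset.filter _ (fun _σ : Equiv.Perm (Fin n) => True) inst univ = univ := by
      ext σ
      simp
    rw [hu, card_univ, Fintype.card_perm, Fintype.card_fin]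
  rw [hsub] at ho1
  rw [hcop, hall] at ho2
  have e1 : (subCopies H F : ℝ) * (stab : ℝ) =
      ((univ.filter (fun σ : Equiv.Perm (Fin n) => F.map σ.toEmbedding ≤ H)).card : ℝ) := by
    exact_mod_cast ho1
  have e2 : (copies F : ℝ) * (stab : ℝ) = (n.factorial : ℝ) := by exact_mod_cast ho2
  have hstabR : (0:ℝ) < (stab : ℝ) := by exact_mod_cast hstab_pos
  have hfin : (subCopies H F : ℝ) * (stab : ℝ) ≤
      ((copies F : ℝ) * m ^ F.edgeSet.ncard) * (stab : ℝ) := by
    calc (subCopies H F : ℝ) * (stab : ℝ)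
        = ((univ.filter (fun σ : Equiv.Perm (Fin n) => F.map σ.toEmbedding ≤ H)).card : ℝ) := e1
      _ ≤ (n.factorial : ℝ) * m ^ F.edgeSet.ncard := hcount
      _ = ((copies F : ℝ) * m ^ F.edgeSet.ncard) * (stab : ℝ) := by rw [← e2]; ring
  exact le_of_mul_le_mul_right hfin hstabR

end Vale.Agent.Lib.P064
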