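import Mathlib
import Vale.Agent.Lib.P064.Threshold

namespace Vale.Agent.Lib.P064

open Finset

open Classical in
/-- Number of graph homomorphisms from a connected pattern with one pinned vertex into a
host in which every vertex has at most `Δ` neighbours. -/
lemma card_pinned_hom_le {α β : Type} [Fintype α] [DecidableEq α] [Fintype β] [DecidableEq β]
    (G : SimpleGraph α) (hG : G.Connected) (nb : β → Finset β) (Δ : ℕ)
    (hnb : ∀ b, (nb b).card ≤ Δ) (w₀ : α) (a : β) :
    Fintype.card {ψ : α → β // ψ w₀ = a ∧ ∀ x y, G.Adj x y → ψ x ∈ nb (ψ y)} ≤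
      Δ ^ (Fintype.card α - 1) := by
  have hpar : ∀ w, ∃ y, w ≠ w₀ → (G.Adj w y ∧ G.dist y w₀ < G.dist w w₀) := by
    intro w
    by_cases hw : w = w₀
    · exact ⟨w, fun h => absurd hw h⟩
    · obtain ⟨q, hq⟩ := hG.exists_walk_length_eq_dist w w₀
      cases q with
      | nil => exact absurd rfl hw
      | cons h q' =>
        refine ⟨_, fun _ => ⟨h, ?_⟩⟩
        have h1 := SimpleGraph.dist_le q'
        rw [SimpleGraph.Walk.length_cons] at hq
        omega
  choose par hpar using hpar
  let code : {ψ : α → β // ψ w₀ = a ∧ ∀ x y, G.Adj x y → ψ x ∈ nb (ψ y)} →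
      ({w : α // w ≠ w₀} → Fin Δ) := fun ψ w =>
    Fin.castLE (hnb (ψ.1 (par w.1)))
      ((nb (ψ.1 (par w.1))).equivFin ⟨ψ.1 w.1, ψ.2.2 _ _ (hpar w.1 w.2).1⟩)
  have hinj : Function.Injective code := by
    intro ψ ψ' h
    apply Subtype.ext
    have aux : ∀ (b b' : β) (_ : b = b') (x : nb b) (x' : nb b'),
        Fin.castLE (hnb b) ((nb b).equivFin x) = Fin.castLE (hnb b') ((nb b').equivFin x') →
        x.1 = x'.1 := by
      intro b b' hb x x' hx
      subst hb
      have := (nb b).equivFin.injective (Fin.castLE_injective _ hx)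
      rw [this]
    have key : ∀ m, ∀ w, G.dist w w₀ < m → ψ.1 w = ψ'.1 w := by
      intro m
      induction m with
      | zero => intro w hw; omega
      | succ m ih =>
        intro w hw
        by_cases hw0 : w = w₀
        · rw [hw0, ψ.2.1, ψ'.2.1]
        · have hp := hpar w hw0
          have h1 : ψ.1 (par w) = ψ'.1 (par w) := ih _ (by omega)
          have h2 := congrFun h ⟨w, hw0⟩
          exact aux _ _ h1 _ _ h2
    funext w
    exact key (G.dist w w₀ + 1) w (by omega)
  have h1 := Fintype.card_le_of_injective code hinj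
  have h2 : Fintype.card ({w : α // w ≠ w₀} → Fin Δ) = Δ ^ (Fintype.card α - 1) := by
    rw [Fintype.card_fun, Fintype.card_fin]
    congr 1
    rw [Fintype.card_subtype_compl, Fintype.card_subtype_eq]
  rw [h2] at h1
  exact h1

end Vale.Agent.Lib.P064
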