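import Mathlib
import Vale.Agent.Lib.P064.Threshold
import Vale.Agent.Lib.P064.BoundedA

namespace Vale.Agent.Lib.P064

open Finset

lemma map_eq_of_eqOn {n : ℕ} (G : SimpleGraph (Fin n)) (S : Finset (Fin n))
    (hGS : ∀ x y, G.Adj x y → x ∈ S) (σ σ' : Equiv.Perm (Fin n)) (h : ∀ x ∈ S, σ x = σ' x) :
    G.map σ.toEmbedding = G.map σ'.toEmbedding := by
  ext u w
  rw [SimpleGraph.map_adj, SimpleGraph.map_adj]
  constructor
  · rintro ⟨x, y, hxy, rfl, rfl⟩
    refine ⟨x, y, hxy, ?_, ?_⟩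
    · simp only [Equiv.coe_toEmbedding]; exact (h x (hGS x y hxy)).symm
    · simp only [Equiv.coe_toEmbedding]; exact (h y (hGS y x hxy.symm)).symm
  · rintro ⟨x, y, hxy, rfl, rfl⟩
    refine ⟨x, y, hxy, ?_, ?_⟩
    · simp only [Equiv.coe_toEmbedding]; exact h x (hGS x y hxy)
    · simp only [Equiv.coe_toEmbedding]; exact h y (hGS y x hxy.symm)

lemma connected_comap {n : ℕ} (G : SimpleGraph (Fin n)) (S : Finset (Fin n)) (u : Fin n)
    (hu : u ∈ S) (hS : ∀ x ∈ S, G.Reachable u x) (hGS : ∀ x y, G.Adj x y → x ∈ S) :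
    (G.comap (Subtype.val : ↥S → Fin n)).Connected := by
  have key : ∀ x, G.Reachable u x → ∀ hx : x ∈ S,
      (G.comap (Subtype.val : ↥S → Fin n)).Reachable ⟨u, hu⟩ ⟨x, hx⟩ := by
    intro x hx
    rw [SimpleGraph.reachable_iff_reflTransGen] at hx
    induction hx with
    | refl => intro _; exact SimpleGraph.Reachable.refl _
    | tail hb hbc ih =>
      intro hc
      have hbS := hGS _ _ hbc
      exact (ih hbS).trans (SimpleGraph.Adj.reachable
        (show (G.comap (Subtype.val : ↥S → Fin n)).Adj ⟨_, hbS⟩ ⟨_, hc⟩ from hbc))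
  have : Nonempty ↥S := ⟨⟨u, hu⟩⟩
  exact ⟨fun x y => ((key x.1 (hS x.1 x.2) x.2).symm).trans (key y.1 (hS y.1 y.2) y.2)⟩

lemma card_le_edges_add_one {n : ℕ} (G : SimpleGraph (Fin n)) (S : Finset (Fin n)) (u : Fin n)
    (hu : u ∈ S) (hS : ∀ x ∈ S, G.Reachable u x) (hGS : ∀ x y, G.Adj x y → x ∈ S) :
    S.card ≤ G.edgeSet.ncard + 1 := by
  have hc := connected_comap G S u hu hS hGS
  have h1 := hc.card_vert_le_card_edgeSet_add_one
  rw [Nat.card_eq_fintype_card, Fintype.card_coe] at h1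
  have h2 : Nat.card (G.comap (Subtype.val : ↥S → Fin n)).edgeSet ≤ G.edgeSet.ncard := by
    rw [Nat.card_coe_set_eq]
    apply Set.ncard_le_ncard_of_injOn (Sym2.map Subtype.val)
    · intro e he
      induction e using Sym2.ind with
      | _ x y =>
        rw [Sym2.map_mk, SimpleGraph.mem_edgeSet]
        rw [SimpleGraph.mem_edgeSet] at he
        exact he
    · exact (Sym2.map.injective Subtype.val_injective).injOn
  omega

open Classical in
lemma card_copies_through_le {n : ℕ} (H G : SimpleGraph (Fin n)) (Δ : ℕ)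
    (hΔ : ∀ v, (H.neighborFinset v).card ≤ Δ)
    (S : Finset (Fin n)) (u : Fin n) (hu : u ∈ S)
    (hS : ∀ x ∈ S, G.Reachable u x) (hGS : ∀ x y, G.Adj x y → x ∈ S) (a b : Fin n) :
    {G' : SimpleGraph (Fin n) | G' ≤ H ∧
      (∃ σ : Equiv.Perm (Fin n), G' = G.map σ.toEmbedding) ∧ G'.Adj a b}.ncard ≤
      S.card * Δ ^ (S.card - 1) := by
  set Gα := G.comap (Subtype.val : ↥S → Fin n) with hGα
  have hconn : Gα.Connected := connected_comap G S u hu hS hGS
  let T : Finset (Σ _ : ↥S, (↥S → Fin n)) :=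
    (univ : Finset ↥S).sigma (fun w => univ.filter (fun ψ : ↥S → Fin n =>
      ψ w = a ∧ ∀ x y, Gα.Adj x y → ψ x ∈ H.neighborFinset (ψ y)))
  have hT : T.card ≤ S.card * Δ ^ (S.card - 1) := by
    rw [card_sigma]
    calc ∑ w : ↥S, (univ.filter (fun ψ : ↥S → Fin n =>
          ψ w = a ∧ ∀ x y, Gα.Adj x y → ψ x ∈ H.neighborFinset (ψ y))).card
        ≤ ∑ _w : ↥S, Δ ^ (S.card - 1) := by
          apply sum_le_sum
          intro w _
          have h := card_pinned_hom_le Gα hconn (fun b => H.neighborFinset b) Δ hΔ w a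
          rw [Fintype.card_subtype, Fintype.card_coe] at h
          exact h
      _ = S.card * Δ ^ (S.card - 1) := by
          rw [sum_const, card_univ, Fintype.card_coe, smul_eq_mul]
  let f : SimpleGraph (Fin n) → (Σ _ : ↥S, (↥S → Fin n)) := fun G' =>
    if h : ∃ σ : Equiv.Perm (Fin n), G' = G.map σ.toEmbedding ∧ σ.symm a ∈ S then
      ⟨⟨(Classical.choose h).symm a, (Classical.choose_spec h).2⟩, fun x => Classical.choose h x⟩
    else ⟨⟨u, hu⟩, fun _ => a⟩
  have hmem : ∀ G' ∈ {G' : SimpleGraph (Fin n) | G' ≤ H ∧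
      (∃ σ : Equiv.Perm (Fin n), G' = G.map σ.toEmbedding) ∧ G'.Adj a b},
      (∃ σ : Equiv.Perm (Fin n), G' = G.map σ.toEmbedding ∧ σ.symm a ∈ S) := by
    rintro G' ⟨_, ⟨σ, rfl⟩, hab⟩
    rw [map_perm_adj] at hab
    exact ⟨σ, rfl, hGS _ _ hab⟩
  calc {G' : SimpleGraph (Fin n) | G' ≤ H ∧
      (∃ σ : Equiv.Perm (Fin n), G' = G.map σ.toEmbedding) ∧ G'.Adj a b}.ncard
      ≤ (T : Set (Σ _ : ↥S, (↥S → Fin n))).ncard := by
        apply Set.ncard_le_ncard_of_injOn f
        · intro G' hG'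
          have h := hmem G' hG'
          have hs := Classical.choose_spec h
          simp only [f, dif_pos h]
          rw [mem_coe, mem_sigma]
          refine ⟨mem_univ _, ?_⟩
          rw [mem_filter]
          refine ⟨mem_univ _, by simp, ?_⟩
          intro x y hxy
          rw [SimpleGraph.mem_neighborFinset]
          have h3 : (G.map (Classical.choose h).toEmbedding).Adj
              (Classical.choose h y) (Classical.choose h x) := by
            rw [SimpleGraph.map_adj]; exact ⟨y, x, hxy.symm, rfl, rfl⟩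
          rw [← hs.1] at h3
          exact hG'.1 h3
        · intro G₁ h₁ G₂ h₂ heq
          have e₁ := hmem G₁ h₁
          have e₂ := hmem G₂ h₂
          simp only [f, dif_pos e₁, dif_pos e₂] at heq
          have hs₁ := (Classical.choose_spec e₁).1
          have hs₂ := (Classical.choose_spec e₂).1
          rw [hs₁, hs₂]
          apply map_eq_of_eqOn G S hGS
          intro x hx
          have h4 := eq_of_heq (Sigma.mk.inj heq).2
          exact congrFun h4 ⟨x, hx⟩
    _ = T.card := Set.ncard_coe_finset T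
    _ ≤ _ := hT

end Vale.Agent.Lib.P064
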