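import Mathlib
import Vale.Agent.Lib.P064.Threshold
import Vale.Agent.Lib.P064.BoundedB

namespace Vale.Agent.Lib.P064

open Finset

lemma sup_adj_iff {n : ℕ} (𝒦 : Finset (SimpleGraph (Fin n))) (x y : Fin n) :
    (𝒦.sup id).Adj x y ↔ ∃ K ∈ 𝒦, K.Adj x y := by
  classical
  induction 𝒦 using Finset.induction_on with
  | empty => simp
  | insert K 𝒦 hK ih =>
    rw [Finset.sup_insert, SimpleGraph.sup_adj, ih]
    simp

lemma ncard_edgeSet_map {n : ℕ} (G : SimpleGraph (Fin n)) (σ : Equiv.Perm (Fin n)) :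
    (G.map σ.toEmbedding).edgeSet.ncard = G.edgeSet.ncard := by
  rw [SimpleGraph.edgeSet_map]
  exact Set.ncard_image_of_injective _ (σ.toEmbedding.sym2Map).injective

lemma edges_sup {n : ℕ} (e : ℕ) (𝒦 : Finset (SimpleGraph (Fin n)))
    (he : ∀ K ∈ 𝒦, K.edgeSet.ncard = e)
    (hdisj : ∀ K ∈ 𝒦, ∀ K' ∈ 𝒦, K ≠ K' → Disjoint K.edgeSet K'.edgeSet) :
    (𝒦.sup id).edgeSet.ncard = 𝒦.card * e := by
  classical
  induction 𝒦 using Finset.induction_on with
  | empty => simp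
  | insert K 𝒦 hK ih =>
    rw [Finset.sup_insert, id, SimpleGraph.edgeSet_sup, card_insert_of_notMem hK]
    have hd : Disjoint K.edgeSet (𝒦.sup id).edgeSet := by
      rw [Set.disjoint_left]
      intro s hs hs'
      induction s using Sym2.ind with
      | _ x y =>
        rw [SimpleGraph.mem_edgeSet] at hs hs'
        rw [sup_adj_iff] at hs'
        obtain ⟨K', hK', hxy⟩ := hs'
        have hne : K ≠ K' := fun h => hK (h ▸ hK')
        have h3 := hdisj K (mem_insert_self _ _) K' (mem_insert_of_mem hK') hne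
        exact (Set.disjoint_left.mp h3) (show s(x, y) ∈ K.edgeSet from hs) hxy
    rw [Set.ncard_union_eq hd (Set.toFinite _) (Set.toFinite _), he K (mem_insert_self _ _),
      ih (fun K' hK' => he K' (mem_insert_of_mem hK'))
         (fun K₁ h₁ K₂ h₂ hne => hdisj K₁ (mem_insert_of_mem h₁) K₂ (mem_insert_of_mem h₂) hne)]
    ring

open Classical in
lemma copies_sup_le {n : ℕ} (G : SimpleGraph (Fin n)) (𝒦 : Finset (SimpleGraph (Fin n)))
    (h𝒦G : ∀ K ∈ 𝒦, ∃ σ : Equiv.Perm (Fin n), K = G.map σ.toEmbedding) :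
    copies (𝒦.sup id) ≤ (copies G).choose 𝒦.card := by
  set O : Finset (SimpleGraph (Fin n)) :=
    univ.image (fun σ : Equiv.Perm (Fin n) => G.map σ.toEmbedding) with hO
  have hOc : O.card = copies G := by
    unfold copies
    rw [← Set.ncard_coe_finset, hO, coe_image, coe_univ, Set.image_univ]
  unfold copies
  have hsub : (Set.range fun σ : Equiv.Perm (Fin n) => (𝒦.sup id).map σ.toEmbedding) ⊆
      (fun s : Finset (SimpleGraph (Fin n)) => s.sup id) ''
        (↑(powersetCard 𝒦.card O) : Set (Finset (SimpleGraph (Fin n)))) := by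
    rintro _ ⟨σ, rfl⟩
    refine ⟨𝒦.image (fun K => K.map σ.toEmbedding), ?_, ?_⟩
    · rw [mem_coe, mem_powersetCard]
      constructor
      · intro K' hK'
        rw [mem_image] at hK'
        obtain ⟨K, hK, rfl⟩ := hK'
        obtain ⟨τ, rfl⟩ := h𝒦G K hK
        rw [hO, mem_image]
        exact ⟨σ * τ, mem_univ _, map_perm_mul G σ τ⟩
      · exact card_image_of_injective _ (SimpleGraph.map_injective σ.toEmbedding)
    · ext x y
      rw [sup_adj_iff, map_perm_adj, sup_adj_iff]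
      constructor
      · rintro ⟨K', hK', hxy⟩
        rw [mem_image] at hK'
        obtain ⟨K, hK, rfl⟩ := hK'
        exact ⟨K, hK, (map_perm_adj K σ x y).mp hxy⟩
      · rintro ⟨K, hK, hxy⟩
        exact ⟨K.map σ.toEmbedding, mem_image_of_mem _ hK, (map_perm_adj K σ x y).mpr hxy⟩
  calc (Set.range fun σ : Equiv.Perm (Fin n) => (𝒦.sup id).map σ.toEmbedding).ncard
      ≤ ((fun s : Finset (SimpleGraph (Fin n)) => s.sup id) ''
        (↑(powersetCard 𝒦.card O) : Set (Finset (SimpleGraph (Fin n))))).ncard :=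
        Set.ncard_le_ncard hsub ((Finset.finite_toSet _).image _)
    _ ≤ (↑(powersetCard 𝒦.card O) : Set (Finset (SimpleGraph (Fin n)))).ncard :=
        Set.ncard_image_le (Finset.finite_toSet _)
    _ = (powersetCard 𝒦.card O).card := Set.ncard_coe_finset _
    _ = (copies G).choose 𝒦.card := by rw [card_powersetCard, hOc]

lemma half_le_choose_pow (c k : ℕ) (y : ℝ) (hy : 0 ≤ y)
    (h : 1 / 2 ≤ (c.choose k : ℝ) * y ^ k) : (k : ℝ) ≤ 6 * c * y := by
  rcases Nat.eq_zero_or_pos k with h0 | hpos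
  · rw [h0, Nat.cast_zero]; positivity
  by_contra hcon
  rw [not_le] at hcon
  have hk : (0:ℝ) < k := by exact_mod_cast hpos
  have hfac : (0:ℝ) < (k.factorial : ℝ) := by positivity
  have h4 : ((c.choose k : ℕ) : ℝ) ≤ (c : ℝ) ^ k / (k.factorial : ℝ) :=
    Nat.choose_le_pow_div k c
  have h7 : (k : ℝ) ^ k / (k.factorial : ℝ) ≤ Real.exp k :=
    Real.pow_div_factorial_le_exp k (by positivity) k
  set t : ℝ := c * y * Real.exp 1 / k with ht
  have hcy : (0:ℝ) ≤ c * y := by positivity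
  have ht0 : 0 ≤ t := by positivity
  have he3 : Real.exp 1 < 3 := by have := Real.exp_one_lt_d9; linarith
  have ht1 : t < 1 / 2 := by
    rw [ht, div_lt_iff₀ hk]
    nlinarith
  have h9 : (k:ℝ) ^ k ≤ Real.exp 1 ^ k * k.factorial := by
    rw [div_le_iff₀ hfac] at h7
    have he : Real.exp (k : ℝ) = Real.exp 1 ^ k := by rw [← Real.exp_nat_mul, mul_one]
    rw [he] at h7; exact h7
  have h8 : 1 / 2 ≤ t ^ k := by
    calc (1:ℝ) / 2 ≤ (c.choose k : ℝ) * y ^ k := h
      _ ≤ (c : ℝ) ^ k / (k.factorial : ℝ) * y ^ k := by gcongr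
      _ ≤ t ^ k := by
        rw [ht, div_pow, mul_pow, mul_pow, div_mul_eq_mul_div,
          div_le_div_iff₀ hfac (by positivity)]
        have h10 : 0 ≤ (c:ℝ) ^ k * y ^ k := by positivity
        nlinarith
  have h10 : t ^ k ≤ t := pow_le_of_le_one ht0 (by linarith) (Nat.pos_iff_ne_zero.mp hpos)
  linarith

lemma disjoint_family_bound {n : ℕ} (H G : SimpleGraph (Fin n)) (p : ℝ) (hp : 0 ≤ p)
    (hE : ∀ F : SimpleGraph (Fin n), F ≤ H → 1 / 2 ≤ (copies F : ℝ) * p ^ F.edgeSet.ncard)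
    (𝒦 : Finset (SimpleGraph (Fin n)))
    (h𝒦H : ∀ K ∈ 𝒦, K ≤ H)
    (h𝒦G : ∀ K ∈ 𝒦, ∃ σ : Equiv.Perm (Fin n), K = G.map σ.toEmbedding)
    (hdisj : ∀ K ∈ 𝒦, ∀ K' ∈ 𝒦, K ≠ K' → Disjoint K.edgeSet K'.edgeSet) :
    (𝒦.card : ℝ) ≤ 6 * (copies G : ℝ) * p ^ G.edgeSet.ncard := by
  have h1 := hE (𝒦.sup id) (Finset.sup_le (fun K hK => h𝒦H K hK))
  have h2 : (𝒦.sup id).edgeSet.ncard = 𝒦.card * G.edgeSet.ncard := by
    apply edges_sup _ _ _ hdisj
    intro K hK
    obtain ⟨σ, rfl⟩ := h𝒦G K hK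
    exact ncard_edgeSet_map G σ
  have h3 : ((copies (𝒦.sup id) : ℕ) : ℝ) ≤ (((copies G).choose 𝒦.card : ℕ) : ℝ) := by
    exact_mod_cast copies_sup_le G 𝒦 h𝒦G
  rw [h2, mul_comm 𝒦.card, pow_mul] at h1
  apply half_le_choose_pow (copies G) 𝒦.card (p ^ G.edgeSet.ncard) (by positivity)
  calc (1:ℝ) / 2 ≤ (copies (𝒦.sup id) : ℝ) * (p ^ G.edgeSet.ncard) ^ 𝒦.card := h1
    _ ≤ (((copies G).choose 𝒦.card : ℕ) : ℝ) * (p ^ G.edgeSet.ncard) ^ 𝒦.card := by gcongr

end Vale.Agent.Lib.P064
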