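import Mathlib
import Vale.Agent.Lib.P064.Threshold
import Vale.Agent.Lib.P064.BoundedC

namespace Vale.Agent.Lib.P064

open Finset

lemma six_mul_le (e : ℕ) (he : 1 ≤ e) : 6 * e * (e + 1) ≤ 12 ^ e := by
  induction e, he using Nat.le_induction with
  | base => norm_num
  | succ e he ih =>
    rw [pow_succ]
    nlinarith

open Classical in
lemma connected_count {n : ℕ} (H : SimpleGraph (Fin n)) (Δ : ℕ)
    (hΔ : ∀ v, (H.neighborFinset v).card ≤ Δ) (p : ℝ) (hp : 0 ≤ p)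
    (hE : ∀ F : SimpleGraph (Fin n), F ≤ H → 1 / 2 ≤ (copies F : ℝ) * p ^ F.edgeSet.ncard)
    (G : SimpleGraph (Fin n)) (hGH : G ≤ H) (S : Finset (Fin n)) (u : Fin n) (hu : u ∈ S)
    (hS : ∀ x ∈ S, G.Reachable u x) (hGS : ∀ x y, G.Adj x y → x ∈ S)
    (hne : 1 ≤ G.edgeSet.ncard) :
    (subCopies H G : ℝ) ≤ (copies G : ℝ) * (12 * Δ * p) ^ G.edgeSet.ncard := by
  set e := G.edgeSet.ncard with he
  set M := S.card * Δ ^ (S.card - 1) with hM
  set 𝒞 : Finset (SimpleGraph (Fin n)) :=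
    (univ.image (fun σ : Equiv.Perm (Fin n) => G.map σ.toEmbedding)).filter (fun G' => G' ≤ H)
    with h𝒞
  have h𝒞mem : ∀ G', G' ∈ 𝒞 ↔ (G' ≤ H ∧ ∃ σ : Equiv.Perm (Fin n), G' = G.map σ.toEmbedding) := by
    intro G'
    rw [h𝒞, mem_filter, mem_image]
    constructor
    · rintro ⟨⟨σ, _, rfl⟩, h⟩; exact ⟨h, σ, rfl⟩
    · rintro ⟨h, σ, rfl⟩; exact ⟨⟨σ, mem_univ _, rfl⟩, h⟩
  have hsub : subCopies H G = 𝒞.card := by
    unfold subCopies
    rw [← Set.ncard_coe_finset]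
    congr 1
    ext G'
    rw [mem_coe, h𝒞mem]
    rfl
  -- a maximal edge-disjoint family
  set 𝒬 : Finset (Finset (SimpleGraph (Fin n))) := 𝒞.powerset.filter
    (fun 𝒦 => ∀ K ∈ 𝒦, ∀ K' ∈ 𝒦, K ≠ K' → Disjoint K.edgeSet K'.edgeSet) with h𝒬
  have h𝒬ne : 𝒬.Nonempty := ⟨∅, by rw [h𝒬, mem_filter]; simp⟩
  obtain ⟨𝒦, h𝒦, hmax⟩ := exists_max_image 𝒬 card h𝒬ne
  rw [h𝒬, mem_filter, mem_powerset] at h𝒦
  obtain ⟨h𝒦sub, h𝒦disj⟩ := h𝒦
  have hk := disjoint_family_bound H G p hp hE 𝒦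
    (fun K hK => ((h𝒞mem K).mp (h𝒦sub hK)).1) (fun K hK => ((h𝒞mem K).mp (h𝒦sub hK)).2) h𝒦disj
  have hedges : (𝒦.sup id).edgeSet.ncard = 𝒦.card * e := by
    apply edges_sup _ _ _ h𝒦disj
    intro K hK
    obtain ⟨σ, rfl⟩ := ((h𝒞mem K).mp (h𝒦sub hK)).2
    exact ncard_edgeSet_map G σ
  -- every copy meets the family
  have hcover : ∀ G' ∈ 𝒞, ∃ s ∈ (𝒦.sup id).edgeSet, s ∈ G'.edgeSet := by
    intro G' hG'
    have hG'e : G'.edgeSet.ncard = e := by
      obtain ⟨σ, rfl⟩ := ((h𝒞mem G').mp hG').2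
      exact ncard_edgeSet_map G σ
    have hG'ne : G'.edgeSet.Nonempty := by
      rw [← Set.ncard_pos (Set.toFinite _), hG'e]; exact hne
    have hin : ∀ K ∈ 𝒦, ∀ s ∈ K.edgeSet, s ∈ (𝒦.sup id).edgeSet := by
      intro K hK s hs
      induction s using Sym2.ind with
      | _ x y =>
        rw [SimpleGraph.mem_edgeSet] at hs ⊢
        exact (sup_adj_iff 𝒦 x y).mpr ⟨K, hK, hs⟩
    by_cases hmem : G' ∈ 𝒦
    · obtain ⟨s, hs⟩ := hG'ne
      exact ⟨s, hin G' hmem s hs, hs⟩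
    · have hnot : insert G' 𝒦 ∉ 𝒬 := by
        intro hin'
        have h1 := hmax _ hin'
        rw [card_insert_of_notMem hmem] at h1
        omega
      rw [h𝒬, mem_filter, mem_powerset] at hnot
      have hnot2 : ¬ (∀ K ∈ insert G' 𝒦, ∀ K' ∈ insert G' 𝒦, K ≠ K' →
          Disjoint K.edgeSet K'.edgeSet) := by
        intro hall
        exact hnot ⟨insert_subset hG' h𝒦sub, hall⟩
      by_contra hcon
      apply hnot2
      have hdisjG : ∀ K ∈ 𝒦, Disjoint G'.edgeSet K.edgeSet := by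
        intro K hK
        rw [Set.disjoint_left]
        intro s hs hs'
        exact hcon ⟨s, hin K hK s hs', hs⟩
      intro K hK K' hK' hKK'
      rw [mem_insert] at hK hK'
      rcases hK with rfl | hK
      · rcases hK' with rfl | hK'
        · exact absurd rfl hKK'
        · exact hdisjG K' hK'
      · rcases hK' with rfl | hK'
        · exact (hdisjG K hK).symm
        · exact h𝒦disj K hK K' hK' hKK'
  -- counting
  set Efin : Finset (Sym2 (Fin n)) := (Set.toFinite (𝒦.sup id).edgeSet).toFinset with hEfin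
  have hEcard : Efin.card = 𝒦.card * e := by
    rw [← hedges, hEfin, Set.ncard_eq_toFinset_card _ (Set.toFinite _)]
  have hfiber : ∀ s ∈ Efin, (𝒞.filter (fun G' => s ∈ G'.edgeSet)).card ≤ M := by
    intro s _
    induction s using Sym2.ind with
    | _ a b =>
      have h1 := card_copies_through_le H G Δ hΔ S u hu hS hGS a b
      refine le_trans ?_ h1
      rw [← Set.ncard_coe_finset]
      apply Set.ncard_le_ncard _ (Set.toFinite _)
      intro G' hG'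
      rw [mem_coe, mem_filter, h𝒞mem] at hG'
      exact ⟨hG'.1.1, hG'.1.2, hG'.2⟩
  have hN : 𝒞.card ≤ 𝒦.card * e * M := by
    have h1 : 𝒞 ⊆ Efin.biUnion (fun s => 𝒞.filter (fun G' => s ∈ G'.edgeSet)) := by
      intro G' hG'
      obtain ⟨s, hs, hs'⟩ := hcover G' hG'
      rw [mem_biUnion]
      exact ⟨s, by rw [hEfin, Set.Finite.mem_toFinset]; exact hs, mem_filter.mpr ⟨hG', hs'⟩⟩
    calc 𝒞.card ≤ (Efin.biUnion (fun s => 𝒞.filter (fun G' => s ∈ G'.edgeSet))).card :=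
          card_le_card h1
      _ ≤ ∑ s ∈ Efin, (𝒞.filter (fun G' => s ∈ G'.edgeSet)).card := card_biUnion_le
      _ ≤ ∑ _s ∈ Efin, M := sum_le_sum hfiber
      _ = 𝒦.card * e * M := by rw [sum_const, hEcard, smul_eq_mul]
  -- arithmetic
  have hΔ1 : 1 ≤ Δ := by
    have hGne : G.edgeSet.Nonempty := by
      rw [← Set.ncard_pos (Set.toFinite _)]; exact hne
    obtain ⟨s, hs⟩ := hGne
    induction s using Sym2.ind with
    | _ x y =>
      rw [SimpleGraph.mem_edgeSet] at hs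
      have h1 : y ∈ H.neighborFinset x := by
        rw [SimpleGraph.mem_neighborFinset]; exact hGH hs
      have h2 : 0 < (H.neighborFinset x).card := card_pos.mpr ⟨y, h1⟩
      have h3 := hΔ x
      omega
  have hv := card_le_edges_add_one G S u hu hS hGS
  have hM1 : 6 * e * M ≤ (12 * Δ) ^ e := by
    have h1 : Δ ^ (S.card - 1) ≤ Δ ^ e := Nat.pow_le_pow_right hΔ1 (by omega)
    have h2 := six_mul_le e hne
    calc 6 * e * M = 6 * e * S.card * Δ ^ (S.card - 1) := by rw [hM]; ring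
      _ ≤ 6 * e * (e + 1) * Δ ^ e := by gcongr
      _ ≤ 12 ^ e * Δ ^ e := by gcongr
      _ = (12 * Δ) ^ e := by rw [mul_pow]
  have hM1R : (6:ℝ) * e * M ≤ (12 * (Δ:ℝ)) ^ e := by exact_mod_cast hM1
  have hNR : (𝒞.card : ℝ) ≤ (𝒦.card : ℝ) * e * M := by exact_mod_cast hN
  rw [hsub]
  have hpe : (0:ℝ) ≤ p ^ e := by positivity
  have hc0 : (0:ℝ) ≤ (copies G : ℝ) := by positivity
  calc (𝒞.card : ℝ) ≤ (𝒦.card : ℝ) * e * M := hNR
    _ ≤ (6 * (copies G : ℝ) * p ^ e) * e * M := by gcongr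
    _ = (copies G : ℝ) * p ^ e * (6 * e * M) := by ring
    _ ≤ (copies G : ℝ) * p ^ e * (12 * (Δ:ℝ)) ^ e := by gcongr
    _ = (copies G : ℝ) * (12 * Δ * p) ^ e := by rw [mul_pow (12 * (Δ:ℝ)) p]; ring

end Vale.Agent.Lib.P064
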