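import Mathlib
import Vale.Agent.Lib.P064.Threshold
import Vale.Agent.Lib.P064.BoundedD

namespace Vale.Agent.Lib.P064

open Finset

lemma map_fix_eq {n : ℕ} (F : SimpleGraph (Fin n)) (S : Finset (Fin n))
    (hFS : ∀ x y, F.Adj x y → x ∈ S) (τ : Equiv.Perm (Fin n)) (hτ : ∀ x ∈ S, τ x = x) :
    F.map τ.toEmbedding = F := by
  have h := map_eq_of_eqOn F S hFS τ 1 (fun x hx => by rw [hτ x hx]; rfl)
  rw [h, map_perm_one]

open Classical in
lemma subCopies_mul_stab {n : ℕ} (H F : SimpleGraph (Fin n)) :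
    subCopies H F * (univ.filter (fun τ : Equiv.Perm (Fin n) => F.map τ.toEmbedding = F)).card =
      (univ.filter (fun σ : Equiv.Perm (Fin n) => F.map σ.toEmbedding ≤ H)).card :=
  orbit_count F (fun G => G ≤ H)

open Classical in
lemma copies_mul_stab {n : ℕ} (F : SimpleGraph (Fin n)) :
    copies F * (univ.filter (fun τ : Equiv.Perm (Fin n) => F.map τ.toEmbedding = F)).card =
      n.factorial := by
  have ho2 := orbit_count F (fun _ => True)
  have hcop : {G : SimpleGraph (Fin n) | True ∧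
      ∃ σ : Equiv.Perm (Fin n), G = F.map σ.toEmbedding}.ncard = copies F := by
    unfold copies
    congr 1
    ext G
    constructor
    · rintro ⟨-, σ, rfl⟩; exact ⟨σ, rfl⟩
    · rintro ⟨σ, rfl⟩; exact ⟨trivial, σ, rfl⟩
  have hall : ∀ (inst : DecidablePred fun _σ : Equiv.Perm (Fin n) => True),
      (@Finset.filter _ (fun _σ : Equiv.Perm (Fin n) => True) inst univ).card = n.factorial := by
    intro inst
    have hu : @Finset.filter _ (fun _σ : Equiv.Perm (Fin n) => True) inst univ = univ := by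
      ext σ
      simp
    rw [hu, card_univ, Fintype.card_perm, Fintype.card_fin]
  rw [hcop, hall] at ho2
  exact ho2

open Classical in
lemma stab_pos {n : ℕ} (F : SimpleGraph (Fin n)) :
    0 < (univ.filter (fun τ : Equiv.Perm (Fin n) => F.map τ.toEmbedding = F)).card :=
  card_pos.mpr ⟨1, mem_filter.mpr ⟨mem_univ _, map_perm_one F⟩⟩

open Classical in
lemma perm_product_le {n : ℕ} (H F₁ F₂ : SimpleGraph (Fin n)) (S₁ S₂ : Finset (Fin n))
    (hd : Disjoint S₁ S₂) (h₁ : ∀ x y, F₁.Adj x y → x ∈ S₁) (h₂ : ∀ x y, F₂.Adj x y → x ∈ S₂) :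
    (univ.filter (fun σ : Equiv.Perm (Fin n) => (F₁ ⊔ F₂).map σ.toEmbedding ≤ H)).card *
      ((n - S₁.card).factorial * (n - S₂.card).factorial) ≤
    (n - (S₁.card + S₂.card)).factorial *
      ((univ.filter (fun σ : Equiv.Perm (Fin n) => F₁.map σ.toEmbedding ≤ H)).card *
       (univ.filter (fun σ : Equiv.Perm (Fin n) => F₂.map σ.toEmbedding ≤ H)).card) := by
  set T := univ.filter (fun σ : Equiv.Perm (Fin n) => (F₁ ⊔ F₂).map σ.toEmbedding ≤ H) with hT
  set T₁ := univ.filter (fun σ : Equiv.Perm (Fin n) => F₁.map σ.toEmbedding ≤ H) with hT₁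
  set T₂ := univ.filter (fun σ : Equiv.Perm (Fin n) => F₂.map σ.toEmbedding ≤ H) with hT₂
  set X₁ := univ.filter (fun τ : Equiv.Perm (Fin n) => ∀ a : ↥S₁, τ (a : Fin n) = a) with hX₁
  set X₂ := univ.filter (fun τ : Equiv.Perm (Fin n) => ∀ a : ↥S₂, τ (a : Fin n) = a) with hX₂
  set X := univ.filter (fun τ : Equiv.Perm (Fin n) => ∀ a : ↥(S₁ ∪ S₂), τ (a : Fin n) = a)
    with hX
  have hX₁c : X₁.card = (n - S₁.card).factorial := by
    have h := card_perm_fix (Subtype.val : ↥S₁ → Fin n) Subtype.val_injective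
    rw [Fintype.card_coe] at h
    exact h
  have hX₂c : X₂.card = (n - S₂.card).factorial := by
    have h := card_perm_fix (Subtype.val : ↥S₂ → Fin n) Subtype.val_injective
    rw [Fintype.card_coe] at h
    exact h
  have hXc : X.card = (n - (S₁.card + S₂.card)).factorial := by
    have h := card_perm_fix (Subtype.val : ↥(S₁ ∪ S₂) → Fin n) Subtype.val_injective
    rw [Fintype.card_coe, card_union_of_disjoint hd] at h
    exact h
  set A := T ×ˢ (X₁ ×ˢ X₂) with hA
  set f : Equiv.Perm (Fin n) × (Equiv.Perm (Fin n) × Equiv.Perm (Fin n)) →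
      Equiv.Perm (Fin n) × Equiv.Perm (Fin n) := fun z => (z.1 * z.2.1, z.1 * z.2.2) with hf
  have hAmem : ∀ z, z ∈ A ↔ ((F₁ ⊔ F₂).map z.1.toEmbedding ≤ H ∧
      (∀ x ∈ S₁, z.2.1 x = x) ∧ (∀ x ∈ S₂, z.2.2 x = x)) := by
    intro z
    rw [hA, mem_product, mem_product, hT, hX₁, hX₂, mem_filter, mem_filter, mem_filter]
    constructor
    · rintro ⟨⟨_, h⟩, ⟨_, h'⟩, ⟨_, h''⟩⟩
      exact ⟨h, fun x hx => h' ⟨x, hx⟩, fun x hx => h'' ⟨x, hx⟩⟩
    · rintro ⟨h, h', h''⟩
      exact ⟨⟨mem_univ _, h⟩, ⟨mem_univ _, fun a => h' a.1 a.2⟩, ⟨mem_univ _, fun a => h'' a.1 a.2⟩⟩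
  have himg : A.image f ⊆ T₁ ×ˢ T₂ := by
    intro z hz
    rw [mem_image] at hz
    obtain ⟨w, hmem, rfl⟩ := hz
    rw [hAmem] at hmem
    obtain ⟨hσ, hτ₁, hτ₂⟩ := hmem
    rw [mem_product, hT₁, hT₂, mem_filter, mem_filter]
    refine ⟨⟨mem_univ _, ?_⟩, ⟨mem_univ _, ?_⟩⟩
    · show F₁.map (w.1 * w.2.1).toEmbedding ≤ H
      rw [map_perm_mul, map_fix_eq F₁ S₁ h₁ w.2.1 hτ₁]
      exact le_trans (SimpleGraph.map_monotone _ le_sup_left) hσ
    · show F₂.map (w.1 * w.2.2).toEmbedding ≤ H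
      rw [map_perm_mul, map_fix_eq F₂ S₂ h₂ w.2.2 hτ₂]
      exact le_trans (SimpleGraph.map_monotone _ le_sup_right) hσ
  have hfib : ∀ z ∈ A.image f,
      (A.filter (fun w => f w = z)).card ≤ (n - (S₁.card + S₂.card)).factorial := by
    intro z hz
    rw [mem_image] at hz
    obtain ⟨w₀, hmem0, rfl⟩ := hz
    rw [hAmem] at hmem0
    rw [← hXc]
    apply card_le_card_of_injOn (fun w => w₀.1⁻¹ * w.1)
    · intro w hw
      rw [mem_coe, mem_filter, hAmem] at hw
      obtain ⟨⟨_, hw1, hw2⟩, hwf⟩ := hw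
      have e1 : w.1 * w.2.1 = w₀.1 * w₀.2.1 := congrArg Prod.fst hwf
      have e2 : w.1 * w.2.2 = w₀.1 * w₀.2.2 := congrArg Prod.snd hwf
      rw [mem_coe, hX, mem_filter]
      refine ⟨mem_univ _, ?_⟩
      rintro ⟨x, hx⟩
      rw [mem_union] at hx
      show (w₀.1⁻¹ * w.1) x = x
      rw [Equiv.Perm.mul_apply, Equiv.Perm.inv_eq_iff_eq]
      rcases hx with hx | hx
      · have h3 := congrArg (fun π : Equiv.Perm (Fin n) => π x) e1
        simp only [Equiv.Perm.mul_apply] at h3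
        rw [hw1 x hx, hmem0.2.1 x hx] at h3
        exact h3
      · have h3 := congrArg (fun π : Equiv.Perm (Fin n) => π x) e2
        simp only [Equiv.Perm.mul_apply] at h3
        rw [hw2 x hx, hmem0.2.2 x hx] at h3
        exact h3
    · intro w hw w' hw' heq
      rw [mem_coe, mem_filter] at hw hw'
      have hσ : w.1 = w'.1 := mul_left_cancel heq
      have e1 : w.1 * w.2.1 = w'.1 * w'.2.1 :=
        (congrArg Prod.fst hw.2).trans (congrArg Prod.fst hw'.2).symm
      have e2 : w.1 * w.2.2 = w'.1 * w'.2.2 :=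
        (congrArg Prod.snd hw.2).trans (congrArg Prod.snd hw'.2).symm
      rw [← hσ] at e1 e2
      exact Prod.ext hσ (Prod.ext (mul_left_cancel e1) (mul_left_cancel e2))
  have h := card_le_mul_card_image (f := f) A _ hfib
  calc T.card * ((n - S₁.card).factorial * (n - S₂.card).factorial) = A.card := by
        rw [hA, card_product, card_product, hX₁c, hX₂c]
    _ ≤ (n - (S₁.card + S₂.card)).factorial * (A.image f).card := h
    _ ≤ (n - (S₁.card + S₂.card)).factorial * (T₁ ×ˢ T₂).card :=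
        Nat.mul_le_mul_left _ (card_le_card himg)
    _ = (n - (S₁.card + S₂.card)).factorial * (T₁.card * T₂.card) := by rw [card_product]

end Vale.Agent.Lib.P064
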