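import Mathlib
import Vale.Agent.Lib.P064.Threshold
import Vale.Agent.Lib.P064.BoundedE

namespace Vale.Agent.Lib.P064

open Finset

open Classical in
/-- The set of vertices of positive degree. -/
noncomputable def supp {n : ℕ} (G : SimpleGraph (Fin n)) : Finset (Fin n) :=
  univ.filter (fun x => ∃ y, G.Adj x y)

lemma mem_supp {n : ℕ} (G : SimpleGraph (Fin n)) (x : Fin n) :
    x ∈ supp G ↔ ∃ y, G.Adj x y := by
  classical
  rw [supp, mem_filter]
  exact ⟨fun h => h.2, fun h => ⟨mem_univ _, h⟩⟩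

lemma card_supp_le {n : ℕ} (G : SimpleGraph (Fin n)) :
    (supp G).card ≤ 2 * G.edgeSet.ncard := by
  classical
  set Efin : Finset (Sym2 (Fin n)) := (Set.toFinite G.edgeSet).toFinset with hEfin
  have hEcard : Efin.card = G.edgeSet.ncard := by
    rw [hEfin, Set.ncard_eq_toFinset_card _ (Set.toFinite _)]
  have hsub : supp G ⊆ Efin.biUnion (fun s => s.toFinset) := by
    intro x hx
    rw [mem_supp] at hx
    obtain ⟨y, hxy⟩ := hx
    rw [mem_biUnion]
    refine ⟨s(x, y), ?_, ?_⟩
    · rw [hEfin, Set.Finite.mem_toFinset]; exact hxy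
    · rw [Sym2.mem_toFinset]; exact Sym2.mem_mk_left x y
  calc (supp G).card ≤ (Efin.biUnion (fun s => s.toFinset)).card := card_le_card hsub
    _ ≤ ∑ s ∈ Efin, s.toFinset.card := card_biUnion_le
    _ ≤ ∑ _s ∈ Efin, 2 := by
        apply sum_le_sum
        intro s _
        rw [Sym2.card_toFinset]
        split_ifs <;> omega
    _ = 2 * G.edgeSet.ncard := by rw [sum_const, hEcard, smul_eq_mul, mul_comm]

/-- The part of `G` inside the connected component of `u`. -/
def compOf {n : ℕ} (G : SimpleGraph (Fin n)) (u : Fin n) : SimpleGraph (Fin n) :=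
  SimpleGraph.fromRel (fun x y => G.Adj x y ∧ G.Reachable u x)

/-- The part of `G` outside the connected component of `u`. -/
def restOf {n : ℕ} (G : SimpleGraph (Fin n)) (u : Fin n) : SimpleGraph (Fin n) :=
  SimpleGraph.fromRel (fun x y => G.Adj x y ∧ ¬ G.Reachable u x)

lemma compOf_adj {n : ℕ} (G : SimpleGraph (Fin n)) (u x y : Fin n) :
    (compOf G u).Adj x y ↔ G.Adj x y ∧ G.Reachable u x := by
  rw [compOf, SimpleGraph.fromRel_adj]
  constructor
  · rintro ⟨_, h | h⟩
    · exact h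
    · exact ⟨h.1.symm, h.2.trans h.1.reachable⟩
  · intro h
    exact ⟨h.1.ne, Or.inl h⟩

lemma restOf_adj {n : ℕ} (G : SimpleGraph (Fin n)) (u x y : Fin n) :
    (restOf G u).Adj x y ↔ G.Adj x y ∧ ¬ G.Reachable u x := by
  rw [restOf, SimpleGraph.fromRel_adj]
  constructor
  · rintro ⟨_, h | h⟩
    · exact h
    · exact ⟨h.1.symm, fun hr => h.2 (hr.trans h.1.symm.reachable)⟩
  · intro h
    exact ⟨h.1.ne, Or.inl h⟩

lemma compOf_sup_restOf {n : ℕ} (G : SimpleGraph (Fin n)) (u : Fin n) :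
    compOf G u ⊔ restOf G u = G := by
  ext x y
  rw [SimpleGraph.sup_adj, compOf_adj, restOf_adj]
  constructor
  · rintro (h | h)
    · exact h.1
    · exact h.1
  · intro h
    by_cases hr : G.Reachable u x
    · exact Or.inl ⟨h, hr⟩
    · exact Or.inr ⟨h, hr⟩

lemma edges_comp_rest {n : ℕ} (G : SimpleGraph (Fin n)) (u : Fin n) :
    G.edgeSet.ncard = (compOf G u).edgeSet.ncard + (restOf G u).edgeSet.ncard := by
  have h1 : G.edgeSet = (compOf G u).edgeSet ∪ (restOf G u).edgeSet := by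
    rw [← SimpleGraph.edgeSet_sup, compOf_sup_restOf]
  have hd : Disjoint (compOf G u).edgeSet (restOf G u).edgeSet := by
    rw [Set.disjoint_left]
    intro s hs hs'
    induction s using Sym2.ind with
    | _ x y =>
      rw [SimpleGraph.mem_edgeSet] at hs hs'
      rw [compOf_adj] at hs
      rw [restOf_adj] at hs'
      exact hs'.2 hs.2
  rw [h1]
  exact Set.ncard_union_eq hd (Set.toFinite _) (Set.toFinite _)

lemma supp_comp_rest {n : ℕ} (G : SimpleGraph (Fin n)) (u : Fin n) :
    supp G = supp (compOf G u) ∪ supp (restOf G u) ∧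
    Disjoint (supp (compOf G u)) (supp (restOf G u)) := by
  classical
  constructor
  · ext x
    rw [mem_union, mem_supp, mem_supp, mem_supp]
    constructor
    · rintro ⟨y, hxy⟩
      by_cases hr : G.Reachable u x
      · exact Or.inl ⟨y, (compOf_adj G u x y).mpr ⟨hxy, hr⟩⟩
      · exact Or.inr ⟨y, (restOf_adj G u x y).mpr ⟨hxy, hr⟩⟩
    · rintro (⟨y, hxy⟩ | ⟨y, hxy⟩)
      · exact ⟨y, ((compOf_adj G u x y).mp hxy).1⟩
      · exact ⟨y, ((restOf_adj G u x y).mp hxy).1⟩
  · rw [Finset.disjoint_left]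
    intro x hx hx'
    rw [mem_supp] at hx hx'
    obtain ⟨y, hxy⟩ := hx
    obtain ⟨y', hxy'⟩ := hx'
    exact ((restOf_adj G u x y').mp hxy').2 ((compOf_adj G u x y).mp hxy).2

lemma compOf_reachable {n : ℕ} (G : SimpleGraph (Fin n)) (u x : Fin n)
    (h : G.Reachable u x) : (compOf G u).Reachable u x := by
  rw [SimpleGraph.reachable_iff_reflTransGen] at h
  induction h with
  | refl => exact SimpleGraph.Reachable.refl _
  | tail hb hbc ih =>
    have hb' := (SimpleGraph.reachable_iff_reflTransGen _ _).mpr hb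
    exact ih.trans (SimpleGraph.Adj.reachable ((compOf_adj G u _ _).mpr ⟨hbc, hb'⟩))

open Classical in
lemma perm_count_all {n : ℕ} (H : SimpleGraph (Fin n)) (Δ : ℕ)
    (hΔ : ∀ v, (H.neighborFinset v).card ≤ Δ) (p : ℝ) (hp : 0 ≤ p)
    (hE : ∀ F : SimpleGraph (Fin n), F ≤ H → 1 / 2 ≤ (copies F : ℝ) * p ^ F.edgeSet.ncard) :
    ∀ (m : ℕ) (G : SimpleGraph (Fin n)), G.edgeSet.ncard ≤ m → G ≤ H →
      ((univ.filter (fun σ : Equiv.Perm (Fin n) => G.map σ.toEmbedding ≤ H)).card : ℝ) ≤
        ((n - (supp G).card).factorial : ℝ) * (n : ℝ) ^ (supp G).card *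
          (12 * Δ * p) ^ G.edgeSet.ncard := by
  have hnoedge : ∀ G : SimpleGraph (Fin n), (∀ x y, ¬ G.Adj x y) →
      ((univ.filter (fun σ : Equiv.Perm (Fin n) => G.map σ.toEmbedding ≤ H)).card : ℝ) ≤
        ((n - (supp G).card).factorial : ℝ) * (n : ℝ) ^ (supp G).card *
          (12 * Δ * p) ^ G.edgeSet.ncard := by
    intro G hG
    have h1 : supp G = ∅ := by
      ext x
      rw [mem_supp]
      simp only [notMem_empty, iff_false]
      rintro ⟨y, hxy⟩
      exact hG x y hxy
    have h2 : G.edgeSet = ∅ := by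
      ext s
      induction s using Sym2.ind with
      | _ x y =>
        rw [SimpleGraph.mem_edgeSet]
        simp only [Set.mem_empty_iff_false, iff_false]
        exact hG x y
    rw [h1, h2, Set.ncard_empty, card_empty, pow_zero, pow_zero, mul_one, mul_one, Nat.sub_zero]
    have h3 : (univ.filter (fun σ : Equiv.Perm (Fin n) => G.map σ.toEmbedding ≤ H)).card ≤
        n.factorial := by
      calc (univ.filter (fun σ : Equiv.Perm (Fin n) => G.map σ.toEmbedding ≤ H)).card
          ≤ (univ : Finset (Equiv.Perm (Fin n))).card := card_filter_le _ _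
        _ = n.factorial := by rw [card_univ, Fintype.card_perm, Fintype.card_fin]
    exact_mod_cast h3
  intro m
  induction m with
  | zero =>
    intro G hm _
    apply hnoedge
    intro x y hxy
    have h1 : G.edgeSet.Nonempty := ⟨s(x, y), hxy⟩
    rw [← Set.ncard_pos (Set.toFinite _)] at h1
    omega
  | succ m ih =>
    intro G hm hGH
    by_cases hedge : ∃ u w, G.Adj u w
    swap
    · apply hnoedge
      intro x y hxy
      exact hedge ⟨x, y, hxy⟩
    obtain ⟨u, w, huw⟩ := hedge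
    set G₁ := compOf G u with hG₁
    set G₂ := restOf G u with hG₂
    have hsup : G₁ ⊔ G₂ = G := compOf_sup_restOf G u
    have hG₁le : G₁ ≤ G := by rw [← hsup]; exact le_sup_left
    have hG₂le : G₂ ≤ G := by rw [← hsup]; exact le_sup_right
    have hedges : G.edgeSet.ncard = G₁.edgeSet.ncard + G₂.edgeSet.ncard := edges_comp_rest G u
    have hsupp : supp G = supp G₁ ∪ supp G₂ := (supp_comp_rest G u).1
    have hdisj : Disjoint (supp G₁) (supp G₂) := (supp_comp_rest G u).2
    have he₁ : 1 ≤ G₁.edgeSet.ncard := by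
      have h1 : G₁.edgeSet.Nonempty :=
        ⟨s(u, w), (compOf_adj G u u w).mpr ⟨huw, SimpleGraph.Reachable.refl _⟩⟩
      exact (Set.ncard_pos (Set.toFinite _)).mpr h1
    -- the component
    set S : Finset (Fin n) := univ.filter (fun x => G.Reachable u x) with hS
    have hc := connected_count H Δ hΔ p hp hE G₁ (hG₁le.trans hGH) S u
      (by rw [hS, mem_filter]; exact ⟨mem_univ _, SimpleGraph.Reachable.refl _⟩)
      (fun x hx => compOf_reachable G u x (by rw [hS, mem_filter] at hx; exact hx.2))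
      (fun x y hxy => by
        rw [hS, mem_filter]; exact ⟨mem_univ _, ((compOf_adj G u x y).mp hxy).2⟩)
      he₁
    have ih₂ := ih G₂ (by omega) (hG₂le.trans hGH)
    have hP := perm_product_le H G₁ G₂ (supp G₁) (supp G₂) hdisj
      (fun x y hxy => (mem_supp G₁ x).mpr ⟨y, hxy⟩) (fun x y hxy => (mem_supp G₂ x).mpr ⟨y, hxy⟩)
    rw [hsup] at hP
    set v₁ := (supp G₁).card with hv₁
    set v₂ := (supp G₂).card with hv₂
    have hv : (supp G).card = v₁ + v₂ := by rw [hsupp, card_union_of_disjoint hdisj]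
    set B : ℝ := 12 * Δ * p with hB
    have hB0 : 0 ≤ B := by positivity
    set T := (univ.filter (fun σ : Equiv.Perm (Fin n) => G.map σ.toEmbedding ≤ H)).card with hT
    set T₁ := (univ.filter (fun σ : Equiv.Perm (Fin n) => G₁.map σ.toEmbedding ≤ H)).card
      with hT₁
    set T₂ := (univ.filter (fun σ : Equiv.Perm (Fin n) => G₂.map σ.toEmbedding ≤ H)).card
      with hT₂
    -- bound for the component
    have hT₁b : (T₁ : ℝ) ≤ ((n - v₁).factorial : ℝ) * (n : ℝ) ^ v₁ * B ^ G₁.edgeSet.ncard := by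
      have e1 := subCopies_mul_stab H G₁
      have e2 := copies_mul_stab G₁
      have hst := stab_pos G₁
      set stab := (univ.filter (fun τ : Equiv.Perm (Fin n) => G₁.map τ.toEmbedding = G₁)).card
        with hstab
      have hv₁n : v₁ ≤ n := by
        have := card_le_univ (supp G₁)
        rw [Fintype.card_fin] at this
        exact this
      have h3 : n.factorial ≤ (n - v₁).factorial * n ^ v₁ := by
        rw [← Nat.factorial_mul_descFactorial hv₁n]
        exact Nat.mul_le_mul_left _ (Nat.descFactorial_le_pow n v₁)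
      have h3R : (n.factorial : ℝ) ≤ ((n - v₁).factorial : ℝ) * (n : ℝ) ^ v₁ := by
        exact_mod_cast h3
      have e1R : (subCopies H G₁ : ℝ) * (stab : ℝ) = (T₁ : ℝ) := by exact_mod_cast e1
      have e2R : (copies G₁ : ℝ) * (stab : ℝ) = (n.factorial : ℝ) := by exact_mod_cast e2
      have hstR : (0:ℝ) ≤ (stab : ℝ) := by positivity
      have hBe : (0:ℝ) ≤ B ^ G₁.edgeSet.ncard := by positivity
      calc (T₁ : ℝ) = (subCopies H G₁ : ℝ) * (stab : ℝ) := e1R.symm
        _ ≤ ((copies G₁ : ℝ) * B ^ G₁.edgeSet.ncard) * (stab : ℝ) := by gcongr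
        _ = (n.factorial : ℝ) * B ^ G₁.edgeSet.ncard := by rw [← e2R]; ring
        _ ≤ ((n - v₁).factorial : ℝ) * (n : ℝ) ^ v₁ * B ^ G₁.edgeSet.ncard := by gcongr
    have hPR : (T : ℝ) * (((n - v₁).factorial : ℝ) * ((n - v₂).factorial : ℝ)) ≤
        ((n - (v₁ + v₂)).factorial : ℝ) * ((T₁ : ℝ) * (T₂ : ℝ)) := by exact_mod_cast hP
    have hf₁ : (0:ℝ) < ((n - v₁).factorial : ℝ) := by positivity
    have hf₂ : (0:ℝ) < ((n - v₂).factorial : ℝ) := by positivity
    rw [hv, hedges, pow_add, pow_add]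
    have hT₂0 : (0:ℝ) ≤ (T₂ : ℝ) := by positivity
    have hfin : (T : ℝ) * (((n - v₁).factorial : ℝ) * ((n - v₂).factorial : ℝ)) ≤
        (((n - (v₁ + v₂)).factorial : ℝ) * ((n : ℝ) ^ v₁ * (n : ℝ) ^ v₂) *
          (B ^ G₁.edgeSet.ncard * B ^ G₂.edgeSet.ncard)) *
          (((n - v₁).factorial : ℝ) * ((n - v₂).factorial : ℝ)) := by
      calc (T : ℝ) * (((n - v₁).factorial : ℝ) * ((n - v₂).factorial : ℝ))
          ≤ ((n - (v₁ + v₂)).factorial : ℝ) * ((T₁ : ℝ) * (T₂ : ℝ)) := hPR
        _ ≤ ((n - (v₁ + v₂)).factorial : ℝ) *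
            ((((n - v₁).factorial : ℝ) * (n : ℝ) ^ v₁ * B ^ G₁.edgeSet.ncard) *
             (((n - v₂).factorial : ℝ) * (n : ℝ) ^ v₂ * B ^ G₂.edgeSet.ncard)) := by
            gcongr
        _ = _ := by ring
    exact le_of_mul_le_mul_right hfin (by positivity)

end Vale.Agent.Lib.P064
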