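import Mathlib
import Vale.Agent.Lib.P064.Threshold
import Vale.Agent.Lib.P064.BoundedF

namespace Vale.Agent.Lib.P064

open Finset

theorem bounded_degree_bound (n : ℕ) (H : SimpleGraph (Fin n)) (Δ : ℕ)
    (hΔ : ∀ v : Fin n, (H.neighborSet v).ncard ≤ Δ) (p : ℝ) (hp : 0 ≤ p)
    (hE : ∀ F : SimpleGraph (Fin n), F ≤ H → 1 / 2 ≤ (copies F : ℝ) * p ^ F.edgeSet.ncard)
    (F : SimpleGraph (Fin n)) (hFH : F ≤ H) :
    (subCopies H F : ℝ) ≤ (copies F : ℝ) * (min 1 (100 * Δ * p)) ^ F.edgeSet.ncard := by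
  classical
  have hΔ' : ∀ v, (H.neighborFinset v).card ≤ Δ := by
    intro v
    have h := hΔ v
    rw [Set.ncard_eq_toFinset_card'] at h
    exact h
  have hQ := perm_count_all H Δ hΔ' p hp hE F.edgeSet.ncard F le_rfl hFH
  set e := F.edgeSet.ncard with he
  set v := (supp F).card with hv
  set T := (univ.filter (fun σ : Equiv.Perm (Fin n) => F.map σ.toEmbedding ≤ H)).card with hT
  have hv2 : v ≤ 2 * e := card_supp_le F
  have hvn : v ≤ n := by
    have h := card_le_univ (supp F)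
    rw [Fintype.card_fin] at h
    exact h
  have h1 := pow_mul_factorial_le n v hvn
  have h2 : (v:ℝ) ^ v / (v.factorial : ℝ) ≤ Real.exp v :=
    Real.pow_div_factorial_le_exp v (by positivity) v
  have hvf : (0:ℝ) < (v.factorial : ℝ) := by positivity
  have h3 : ((n - v).factorial : ℝ) * (n:ℝ) ^ v ≤ Real.exp v * (n.factorial : ℝ) := by
    have hfd : ((n - v).factorial : ℝ) * (n.descFactorial v : ℝ) = (n.factorial : ℝ) := by
      exact_mod_cast Nat.factorial_mul_descFactorial hvn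
    have h1R : (n:ℝ) ^ v * (v.factorial : ℝ) ≤ (v:ℝ) ^ v * (n.descFactorial v : ℝ) := by
      exact_mod_cast h1
    rw [div_le_iff₀ hvf] at h2
    have h4 : (n:ℝ) ^ v ≤ Real.exp v * (n.descFactorial v : ℝ) := by
      have h5 : (n:ℝ) ^ v * (v.factorial : ℝ) ≤
          (Real.exp v * (n.descFactorial v : ℝ)) * (v.factorial : ℝ) := by
        calc (n:ℝ) ^ v * (v.factorial : ℝ) ≤ (v:ℝ) ^ v * (n.descFactorial v : ℝ) := h1R
          _ ≤ (Real.exp v * (v.factorial : ℝ)) * (n.descFactorial v : ℝ) := by gcongr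
          _ = (Real.exp v * (n.descFactorial v : ℝ)) * (v.factorial : ℝ) := by ring
      exact le_of_mul_le_mul_right h5 hvf
    calc ((n - v).factorial : ℝ) * (n:ℝ) ^ v
        ≤ ((n - v).factorial : ℝ) * (Real.exp v * (n.descFactorial v : ℝ)) := by gcongr
      _ = Real.exp v * (n.factorial : ℝ) := by rw [← hfd]; ring
  have h5 : Real.exp v ≤ 8 ^ e := by
    have he1 : Real.exp (v:ℝ) = Real.exp 1 ^ v := by rw [← Real.exp_nat_mul, mul_one]
    have he0 : (1:ℝ) ≤ Real.exp 1 := Real.one_le_exp (by norm_num)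
    have he2 : Real.exp 1 ^ v ≤ Real.exp 1 ^ (2 * e) := pow_le_pow_right₀ he0 hv2
    have he3 : Real.exp 1 ^ 2 ≤ 8 := by
      have h9 := Real.exp_one_lt_d9
      nlinarith [Real.exp_pos 1]
    calc Real.exp (v:ℝ) = Real.exp 1 ^ v := he1
      _ ≤ Real.exp 1 ^ (2 * e) := he2
      _ = (Real.exp 1 ^ 2) ^ e := by rw [pow_mul]
      _ ≤ 8 ^ e := pow_le_pow_left₀ (by positivity) he3 e
  have hB0 : (0:ℝ) ≤ 12 * Δ * p := by positivity
  have hTb : (T : ℝ) ≤ (n.factorial : ℝ) * (100 * Δ * p) ^ e := by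
    calc (T : ℝ) ≤ ((n - v).factorial : ℝ) * (n:ℝ) ^ v * (12 * Δ * p) ^ e := hQ
      _ ≤ (Real.exp v * (n.factorial : ℝ)) * (12 * Δ * p) ^ e := by gcongr
      _ ≤ ((8:ℝ) ^ e * (n.factorial : ℝ)) * (12 * Δ * p) ^ e := by gcongr
      _ = (n.factorial : ℝ) * (8 * (12 * Δ * p)) ^ e := by
          rw [mul_pow (8:ℝ) (12 * (Δ:ℝ) * p) e]; ring
      _ ≤ (n.factorial : ℝ) * (100 * Δ * p) ^ e := by
          have h96 : 8 * (12 * (Δ:ℝ) * p) ≤ 100 * Δ * p := by
            nlinarith [mul_nonneg (Nat.cast_nonneg (α := ℝ) Δ) hp]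
          exact mul_le_mul_of_nonneg_left (pow_le_pow_left₀ (by positivity) h96 e)
            (by positivity)
  have e1 := subCopies_mul_stab H F
  have e2 := copies_mul_stab F
  have hst := stab_pos F
  set stab := (univ.filter (fun τ : Equiv.Perm (Fin n) => F.map τ.toEmbedding = F)).card
    with hstab
  have e1R : (subCopies H F : ℝ) * (stab : ℝ) = (T : ℝ) := by exact_mod_cast e1
  have e2R : (copies F : ℝ) * (stab : ℝ) = (n.factorial : ℝ) := by exact_mod_cast e2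
  have hstR : (0:ℝ) < (stab : ℝ) := by exact_mod_cast hst
  have hmain : (subCopies H F : ℝ) ≤ (copies F : ℝ) * (100 * Δ * p) ^ e := by
    have hfin : (subCopies H F : ℝ) * (stab : ℝ) ≤
        ((copies F : ℝ) * (100 * Δ * p) ^ e) * (stab : ℝ) := by
      calc (subCopies H F : ℝ) * (stab : ℝ) = (T : ℝ) := e1R
        _ ≤ (n.factorial : ℝ) * (100 * Δ * p) ^ e := hTb
        _ = ((copies F : ℝ) * (100 * Δ * p) ^ e) * (stab : ℝ) := by rw [← e2R]; ring
    exact le_of_mul_le_mul_right hfin hstR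
  have htriv : (subCopies H F : ℝ) ≤ (copies F : ℝ) := by
    have h6 : subCopies H F ≤ copies F := by
      unfold subCopies copies
      apply Set.ncard_le_ncard _ (Set.toFinite _)
      rintro G ⟨_, σ, rfl⟩
      exact ⟨σ, rfl⟩
    exact_mod_cast h6
  rcases le_total 1 (100 * (Δ:ℝ) * p) with h | h
  · rw [min_eq_left h, one_pow, mul_one]; exact htriv
  · rw [min_eq_right h]; exact hmain

lemma degree_le_of_hyp {n : ℕ} (H : SimpleGraph (Fin n)) (p : ℝ) (hp : 0 ≤ p)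
    (hE : ∀ F : SimpleGraph (Fin n), F ≤ H → 1 / 2 ≤ (copies F : ℝ) * p ^ F.edgeSet.ncard)
    (m : ℕ) (hm1 : 3 * n ≤ 2 ^ m) (hm2 : 11 * (n:ℝ) * p ≤ m) (v : Fin n) :
    (H.neighborSet v).ncard ≤ m := by
  classical
  by_contra hcon
  rw [not_le] at hcon
  have hlt := ncard_nbr_lt H v
  have hmn : m + 1 < n := by omega
  have hn0 : (0:ℝ) < n := by exact_mod_cast (by omega : 0 < n)
  have hp1 : p ≤ 1 := by
    have h1 : (m:ℝ) < n := by exact_mod_cast (by omega : m < n)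
    nlinarith
  have hdeg : m + 1 ≤ (H.neighborFinset v).card := by
    have h1 : (H.neighborSet v).ncard = (H.neighborFinset v).card := by
      rw [Set.ncard_eq_toFinset_card']; rfl
    omega
  obtain ⟨A, hAsub, hAcard⟩ := exists_subset_card_eq hdeg
  have hAadj : ∀ a ∈ A, H.Adj v a := by
    intro a ha
    have h1 := hAsub ha
    rwa [SimpleGraph.mem_neighborFinset] at h1
  set F := starGraph {v} (fun _ => A) with hF
  have hle : F ≤ H := by
    intro x y h
    rw [hF, starGraph, SimpleGraph.fromRel_adj] at h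
    rcases h with ⟨_, h | h⟩
    · rw [mem_singleton] at h
      rw [h.1]; exact hAadj y h.2
    · rw [mem_singleton] at h
      rw [h.1]; exact (hAadj x h.2).symm
  have h1 := hE F hle
  have h2 : copies F ≤ n * n.choose (m + 1) := by
    have h := copies_starGraph_le {v} (fun _ => A) (m + 1) (fun c _ => hAcard)
    rwa [card_singleton, Nat.choose_one_right] at h
  have h3 : m + 1 ≤ F.edgeSet.ncard := by
    have h := card_edges_starGraph {v} (fun _ => A) (m + 1) (fun c _ => hAcard)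
      (fun c hc a ha => by
        intro hav
        rw [mem_singleton] at hav
        exact (hAadj a ha).ne' hav)
    rwa [card_singleton, one_mul] at h
  set k := m + 1 with hk
  have h2R : (copies F : ℝ) ≤ (n : ℝ) * (n.choose k : ℝ) := by exact_mod_cast h2
  have h4 : (1:ℝ) / 2 ≤ (n : ℝ) * (n.choose k : ℝ) * p ^ k := by
    calc (1:ℝ) / 2 ≤ (copies F : ℝ) * p ^ F.edgeSet.ncard := h1
      _ ≤ ((n : ℝ) * (n.choose k : ℝ)) * p ^ k :=
          mul_le_mul h2R (pow_le_pow_of_le_one hp hp1 h3) (by positivity) (by positivity)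
  have h5 : (n.choose k : ℝ) ≤ (n:ℝ) ^ k / (k.factorial : ℝ) := Nat.choose_le_pow_div k n
  have h6 : (k:ℝ) ^ k / (k.factorial : ℝ) ≤ Real.exp k :=
    Real.pow_div_factorial_le_exp k (by positivity) k
  have hkf : (0:ℝ) < (k.factorial : ℝ) := by positivity
  have h7 : (n:ℝ) * p ≤ (k:ℝ) / 11 := by
    rw [hk]; push_cast; linarith
  have hnp0 : (0:ℝ) ≤ (n:ℝ) * p := by positivity
  have he1 : Real.exp (k:ℝ) = Real.exp 1 ^ k := by rw [← Real.exp_nat_mul, mul_one]
  have he3 : Real.exp 1 / 11 ≤ 1 / 4 := by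
    have h9 := Real.exp_one_lt_d9
    linarith
  have h8 : (n : ℝ) * (n.choose k : ℝ) * p ^ k ≤ (n:ℝ) * (1 / 4) ^ k := by
    have h9 : (n.choose k : ℝ) * p ^ k ≤ (1 / 4) ^ k := by
      calc (n.choose k : ℝ) * p ^ k ≤ (n:ℝ) ^ k / (k.factorial : ℝ) * p ^ k := by gcongr
        _ = ((n:ℝ) * p) ^ k / (k.factorial : ℝ) := by rw [mul_pow]; ring
        _ ≤ ((k:ℝ) / 11) ^ k / (k.factorial : ℝ) := by gcongr
        _ = ((k:ℝ) ^ k / (k.factorial : ℝ)) / 11 ^ k := by rw [div_pow]; ring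
        _ ≤ Real.exp k / 11 ^ k := by gcongr
        _ = (Real.exp 1 / 11) ^ k := by rw [he1, div_pow]
        _ ≤ (1 / 4) ^ k := pow_le_pow_left₀ (by positivity) he3 k
    calc (n : ℝ) * (n.choose k : ℝ) * p ^ k = (n:ℝ) * ((n.choose k : ℝ) * p ^ k) := by ring
      _ ≤ (n:ℝ) * (1 / 4) ^ k := by gcongr
  have h10 : (n:ℝ) * (1 / 4) ^ k < 1 / 2 := by
    have h11 : (3:ℝ) * n ≤ 2 ^ m := by exact_mod_cast hm1
    have h12 : (4:ℝ) ^ k = 4 * (2 ^ m) ^ 2 := by
      rw [hk, pow_succ, ← pow_mul, mul_comm m 2, pow_mul]; norm_num; ring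
    rw [one_div_pow, h12]
    have h13 : (1:ℝ) ≤ n := by exact_mod_cast (by omega : 1 ≤ n)
    have h14 : (0:ℝ) < 4 * (2 ^ m) ^ 2 := by positivity
    rw [mul_one_div, div_lt_iff₀ h14]
    nlinarith
  linarith

theorem sparse_bound (n : ℕ) (H : SimpleGraph (Fin n)) (m : ℕ) (hm1 : 3 * n ≤ 2 ^ m)
    (p : ℝ) (hp : 0 ≤ p) (hm2 : 11 * (n:ℝ) * p ≤ m)
    (hE : ∀ F : SimpleGraph (Fin n), F ≤ H → 1 / 2 ≤ (copies F : ℝ) * p ^ F.edgeSet.ncard)
    (F : SimpleGraph (Fin n)) (hFH : F ≤ H) :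
    (subCopies H F : ℝ) ≤ (copies F : ℝ) * (min 1 (100 * m * p)) ^ F.edgeSet.ncard :=
  bounded_degree_bound n H m (degree_le_of_hyp H p hp hE m hm1 hm2) p hp hE F hFH

end Vale.Agent.Lib.P064
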