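import Mathlib
import Vale.Agent.Lib.P064.BoundedG

namespace Vale.Agent.Lib.P064

open Finset

lemma hyp_of_half {n : ℕ} (H : SimpleGraph (Fin n)) (p : ℝ) (hp : 0 ≤ p)
    (hE : ∀ F : SimpleGraph (Fin n), F ≤ H → 1 / 2 ≤ (copies F : ℝ) * p ^ F.edgeSet.ncard) :
    Hyp H (2 * p) := by
  intro F' hF'
  have h1 := hE F' hF'
  rcases Nat.eq_zero_or_pos F'.edgeSet.ncard with h0 | hpos
  · rw [h0, pow_zero, mul_one]
    have hc : 1 ≤ copies F' := by
      unfold copies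
      rw [Nat.one_le_iff_ne_zero, Ne, Set.ncard_eq_zero (Set.finite_range _)]
      exact (Set.range_nonempty _).ne_empty
    exact_mod_cast hc
  · have h2 : (2:ℝ) ≤ 2 ^ F'.edgeSet.ncard := by
      calc (2:ℝ) = 2 ^ 1 := (pow_one 2).symm
        _ ≤ 2 ^ F'.edgeSet.ncard := pow_le_pow_right₀ (by norm_num) hpos
    have h3 : (copies F' : ℝ) * (2 * p) ^ F'.edgeSet.ncard =
        2 ^ F'.edgeSet.ncard * ((copies F' : ℝ) * p ^ F'.edgeSet.ncard) := by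
      rw [mul_pow]; ring
    rw [h3]
    have h4 : (0:ℝ) ≤ (copies F' : ℝ) * p ^ F'.edgeSet.ncard := by positivity
    nlinarith

theorem star_forest_emb_half (n : ℕ) (H : SimpleGraph (Fin n)) (p : ℝ) (hp : 0 ≤ p)
    (hE : ∀ F : SimpleGraph (Fin n), F ≤ H → 1 / 2 ≤ (copies F : ℝ) * p ^ F.edgeSet.ncard)
    (k : ℕ) (s : Fin k → ℕ) (hs : ∀ i, 1 ≤ s i) :
    (({φ : (Σ i : Fin k, Fin (s i + 1)) → Fin n | Function.Injective φ ∧
        ∀ (i : Fin k) (j : Fin (s i)), H.Adj (φ ⟨i, 0⟩) (φ ⟨i, j.succ⟩)}.ncard : ℕ) : ℝ) ≤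
    (n.descFactorial (∑ i, (s i + 1)) : ℝ) * (min 1 (20000000 * p)) ^ (∑ i, s i) := by
  have h := forest_bound n H (2 * p) (by positivity) (hyp_of_half H p hp hE) k s hs
  have h20 : (10000000 : ℝ) * (2 * p) = 20000000 * p := by ring
  rw [h20] at h
  exact h

end Vale.Agent.Lib.P064
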