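import Mathlib
import Vale.Agent.Lib.P064.BoundedG

namespace Vale.Agent.Lib.P064

open Finset

open Classical in
/-- Permutations mapping a connected piece `G` (living on `S`) into a host of maximum degree
at most `Δ`. -/
lemma card_perm_conn_le {n : ℕ} (H G : SimpleGraph (Fin n)) (Δ : ℕ)
    (hΔ : ∀ v, (H.neighborFinset v).card ≤ Δ)
    (S : Finset (Fin n)) (u : Fin n) (hu : u ∈ S)
    (hS : ∀ x ∈ S, G.Reachable u x) (hGS : ∀ x y, G.Adj x y → x ∈ S) :
    (univ.filter (fun σ : Equiv.Perm (Fin n) => G.map σ.toEmbedding ≤ H)).card ≤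
      (n - S.card).factorial * (n * Δ ^ (S.card - 1)) := by
  set Gα := G.comap (Subtype.val : ↥S → Fin n) with hGα
  have hconn : Gα.Connected := connected_comap G S u hu hS hGS
  set 𝒢 : Finset (↥S → Fin n) := univ.filter (fun ψ : ↥S → Fin n =>
      ∀ x y, Gα.Adj x y → ψ x ∈ H.neighborFinset (ψ y)) with h𝒢
  have h𝒢card : 𝒢.card ≤ n * Δ ^ (S.card - 1) := by
    have hsub : 𝒢 ⊆ (univ : Finset (Fin n)).biUnion (fun a => univ.filter (fun ψ : ↥S → Fin n =>
        ψ ⟨u, hu⟩ = a ∧ ∀ x y, Gα.Adj x y → ψ x ∈ H.neighborFinset (ψ y))) := by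
      intro ψ hψ
      rw [h𝒢, mem_filter] at hψ
      rw [mem_biUnion]
      exact ⟨ψ ⟨u, hu⟩, mem_univ _, mem_filter.mpr ⟨mem_univ _, rfl, hψ.2⟩⟩
    calc 𝒢.card ≤ ((univ : Finset (Fin n)).biUnion (fun a => univ.filter (fun ψ : ↥S → Fin n =>
          ψ ⟨u, hu⟩ = a ∧ ∀ x y, Gα.Adj x y → ψ x ∈ H.neighborFinset (ψ y)))).card :=
          card_le_card hsub
      _ ≤ ∑ a : Fin n, (univ.filter (fun ψ : ↥S → Fin n =>
          ψ ⟨u, hu⟩ = a ∧ ∀ x y, Gα.Adj x y → ψ x ∈ H.neighborFinset (ψ y))).card :=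
          card_biUnion_le
      _ ≤ ∑ _a : Fin n, Δ ^ (S.card - 1) := by
          apply sum_le_sum
          intro a _
          have h := card_pinned_hom_le Gα hconn (fun b => H.neighborFinset b) Δ hΔ ⟨u, hu⟩ a
          rw [Fintype.card_subtype, Fintype.card_coe] at h
          exact h
      _ = n * Δ ^ (S.card - 1) := by
          rw [sum_const, card_univ, Fintype.card_fin, smul_eq_mul]
  have h1 := card_perm_comp_le (Subtype.val : ↥S → Fin n) Subtype.val_injective 𝒢
  rw [Fintype.card_coe] at h1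
  calc (univ.filter (fun σ : Equiv.Perm (Fin n) => G.map σ.toEmbedding ≤ H)).card
      ≤ (univ.filter (fun σ : Equiv.Perm (Fin n) => (fun a : ↥S => σ a.1) ∈ 𝒢)).card := by
        apply card_le_card
        intro σ hσ
        rw [mem_filter] at hσ ⊢
        refine ⟨mem_univ _, ?_⟩
        rw [h𝒢, mem_filter]
        refine ⟨mem_univ _, ?_⟩
        intro x y hxy
        rw [SimpleGraph.mem_neighborFinset]
        apply hσ.2
        rw [SimpleGraph.map_adj]
        exact ⟨y, x, hxy.symm, rfl, rfl⟩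
    _ ≤ (n - S.card).factorial * 𝒢.card := h1
    _ ≤ (n - S.card).factorial * (n * Δ ^ (S.card - 1)) := Nat.mul_le_mul_left _ h𝒢card

/-- A connected acyclic piece living on `S` has at most `|S| - 1` edges. -/
lemma edges_add_one_le_card {n : ℕ} (G : SimpleGraph (Fin n)) (hG : G.IsAcyclic)
    (S : Finset (Fin n)) (u : Fin n) (hu : u ∈ S)
    (hS : ∀ x ∈ S, G.Reachable u x) (hGS : ∀ x y, G.Adj x y → x ∈ S) :
    G.edgeSet.ncard + 1 ≤ S.card := by
  classical
  have hc := connected_comap G S u hu hS hGS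
  have hac : (G.comap (Subtype.val : ↥S → Fin n)).IsAcyclic :=
    hG.comap ⟨Subtype.val, fun h => h⟩ Subtype.val_injective
  have ht : (G.comap (Subtype.val : ↥S → Fin n)).IsTree := ⟨hc, hac⟩
  have h1 := ht.card_edgeFinset
  rw [Fintype.card_coe] at h1
  have h2 : G.edgeSet.ncard ≤ (G.comap (Subtype.val : ↥S → Fin n)).edgeFinset.card := by
    have hsub : G.edgeSet ⊆
        Sym2.map Subtype.val '' (G.comap (Subtype.val : ↥S → Fin n)).edgeSet := by
      intro e he
      induction e using Sym2.ind with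
      | _ x y =>
        rw [SimpleGraph.mem_edgeSet] at he
        exact ⟨s(⟨x, hGS x y he⟩, ⟨y, hGS y x he.symm⟩), he, rfl⟩
    calc G.edgeSet.ncard
        ≤ (Sym2.map Subtype.val '' (G.comap (Subtype.val : ↥S → Fin n)).edgeSet).ncard :=
          Set.ncard_le_ncard hsub (Set.toFinite _)
      _ ≤ (G.comap (Subtype.val : ↥S → Fin n)).edgeSet.ncard :=
          Set.ncard_image_le (Set.toFinite _)
      _ = (G.comap (Subtype.val : ↥S → Fin n)).edgeFinset.card := by
          rw [Set.ncard_eq_toFinset_card']; rfl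
  omega

open Classical in
lemma perm_count_forest {n : ℕ} (H : SimpleGraph (Fin n)) (Δ : ℕ)
    (hΔ : ∀ v, (H.neighborFinset v).card ≤ Δ) :
    ∀ (m : ℕ) (G : SimpleGraph (Fin n)), G.edgeSet.ncard ≤ m → G.IsAcyclic →
      ((univ.filter (fun σ : Equiv.Perm (Fin n) => G.map σ.toEmbedding ≤ H)).card : ℝ) ≤
        ((n - (supp G).card).factorial : ℝ) * (n : ℝ) ^ (supp G).card *
          ((Δ : ℝ) / n) ^ G.edgeSet.ncard := by
  have hnoedge : ∀ G : SimpleGraph (Fin n), (∀ x y, ¬ G.Adj x y) →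
      ((univ.filter (fun σ : Equiv.Perm (Fin n) => G.map σ.toEmbedding ≤ H)).card : ℝ) ≤
        ((n - (supp G).card).factorial : ℝ) * (n : ℝ) ^ (supp G).card *
          ((Δ : ℝ) / n) ^ G.edgeSet.ncard := by
    intro G hG
    have h1 : supp G = ∅ := by
      ext x
      rw [mem_supp]
      simp only [notMem_empty, iff_false]
      rintro ⟨y, hxy⟩
      exact hG x y hxy
    have h2 : G.edgeSet = ∅ := by
      ext s
      induction s using Sym2.ind with
      | _ x y =>
        rw [SimpleGraph.mem_edgeSet]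
        simp only [Set.mem_empty_iff_false, iff_false]
        exact hG x y
    rw [h1, h2, Set.ncard_empty, card_empty, pow_zero, pow_zero, mul_one, mul_one, Nat.sub_zero]
    have h3 : (univ.filter (fun σ : Equiv.Perm (Fin n) => G.map σ.toEmbedding ≤ H)).card ≤
        n.factorial := by
      calc (univ.filter (fun σ : Equiv.Perm (Fin n) => G.map σ.toEmbedding ≤ H)).card
          ≤ (univ : Finset (Equiv.Perm (Fin n))).card := card_filter_le _ _
        _ = n.factorial := by rw [card_univ, Fintype.card_perm, Fintype.card_fin]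
    exact_mod_cast h3
  intro m
  induction m with
  | zero =>
    intro G hm _
    apply hnoedge
    intro x y hxy
    have h1 : G.edgeSet.Nonempty := ⟨s(x, y), hxy⟩
    rw [← Set.ncard_pos (Set.toFinite _)] at h1
    omega
  | succ m ih =>
    intro G hm hGac
    by_cases hedge : ∃ u w, G.Adj u w
    swap
    · apply hnoedge
      intro x y hxy
      exact hedge ⟨x, y, hxy⟩
    obtain ⟨u, w, huw⟩ := hedge
    have hn0 : 0 < n := Fin.pos u
    have hnR : (0:ℝ) < (n:ℝ) := by exact_mod_cast hn0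
    set G₁ := compOf G u with hG₁
    set G₂ := restOf G u with hG₂
    have hsup : G₁ ⊔ G₂ = G := compOf_sup_restOf G u
    have hG₁le : G₁ ≤ G := by rw [← hsup]; exact le_sup_left
    have hG₂le : G₂ ≤ G := by rw [← hsup]; exact le_sup_right
    have hedges : G.edgeSet.ncard = G₁.edgeSet.ncard + G₂.edgeSet.ncard := edges_comp_rest G u
    have hsupp : supp G = supp G₁ ∪ supp G₂ := (supp_comp_rest G u).1
    have hdisj : Disjoint (supp G₁) (supp G₂) := (supp_comp_rest G u).2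
    have he₁ : 1 ≤ G₁.edgeSet.ncard := by
      have h1 : G₁.edgeSet.Nonempty :=
        ⟨s(u, w), (compOf_adj G u u w).mpr ⟨huw, SimpleGraph.Reachable.refl _⟩⟩
      exact (Set.ncard_pos (Set.toFinite _)).mpr h1
    -- the component lives on its support
    have huS : u ∈ supp G₁ :=
      (mem_supp G₁ u).mpr ⟨w, (compOf_adj G u u w).mpr ⟨huw, SimpleGraph.Reachable.refl _⟩⟩
    have hreach : ∀ x ∈ supp G₁, G₁.Reachable u x := by
      intro x hx
      rw [mem_supp] at hx
      obtain ⟨y, hxy⟩ := hx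
      exact compOf_reachable G u x ((compOf_adj G u x y).mp hxy).2
    have hin : ∀ x y, G₁.Adj x y → x ∈ supp G₁ := fun x y hxy => (mem_supp G₁ x).mpr ⟨y, hxy⟩
    have hc := card_perm_conn_le H G₁ Δ hΔ (supp G₁) u huS hreach hin
    have hev := edges_add_one_le_card G₁ (hGac.anti hG₁le) (supp G₁) u huS hreach hin
    have hve := card_le_edges_add_one G₁ (supp G₁) u huS hreach hin
    have ih₂ := ih G₂ (by omega) (hGac.anti hG₂le)
    have hP := perm_product_le H G₁ G₂ (supp G₁) (supp G₂) hdisj hin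
      (fun x y hxy => (mem_supp G₂ x).mpr ⟨y, hxy⟩)
    rw [hsup] at hP
    set v₁ := (supp G₁).card with hv₁
    set v₂ := (supp G₂).card with hv₂
    have hv : (supp G).card = v₁ + v₂ := by rw [hsupp, card_union_of_disjoint hdisj]
    set B : ℝ := (Δ : ℝ) / n with hB
    have hB0 : 0 ≤ B := by positivity
    set T := (univ.filter (fun σ : Equiv.Perm (Fin n) => G.map σ.toEmbedding ≤ H)).card with hT
    set T₁ := (univ.filter (fun σ : Equiv.Perm (Fin n) => G₁.map σ.toEmbedding ≤ H)).card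
      with hT₁
    set T₂ := (univ.filter (fun σ : Equiv.Perm (Fin n) => G₂.map σ.toEmbedding ≤ H)).card
      with hT₂
    -- bound for the component
    have hT₁b : (T₁ : ℝ) ≤ ((n - v₁).factorial : ℝ) * (n : ℝ) ^ v₁ * B ^ G₁.edgeSet.ncard := by
      have hv₁e : v₁ = G₁.edgeSet.ncard + 1 := by omega
      have hcR : (T₁ : ℝ) ≤ ((n - v₁).factorial : ℝ) * ((n : ℝ) * (Δ : ℝ) ^ (v₁ - 1)) := by
        exact_mod_cast hc
      have hpow : (n : ℝ) * (Δ : ℝ) ^ (v₁ - 1) = (n : ℝ) ^ v₁ * B ^ G₁.edgeSet.ncard := by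
        rw [hv₁e, Nat.add_sub_cancel, hB, div_pow, pow_succ]
        field_simp
      calc (T₁ : ℝ) ≤ ((n - v₁).factorial : ℝ) * ((n : ℝ) * (Δ : ℝ) ^ (v₁ - 1)) := hcR
        _ = ((n - v₁).factorial : ℝ) * (n : ℝ) ^ v₁ * B ^ G₁.edgeSet.ncard := by
            rw [hpow]; ring
    have hPR : (T : ℝ) * (((n - v₁).factorial : ℝ) * ((n - v₂).factorial : ℝ)) ≤
        ((n - (v₁ + v₂)).factorial : ℝ) * ((T₁ : ℝ) * (T₂ : ℝ)) := by exact_mod_cast hP
    have hf₁ : (0:ℝ) < ((n - v₁).factorial : ℝ) := by positivity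
    have hf₂ : (0:ℝ) < ((n - v₂).factorial : ℝ) := by positivity
    rw [hv, hedges, pow_add, pow_add]
    have hT₂0 : (0:ℝ) ≤ (T₂ : ℝ) := by positivity
    have hfin : (T : ℝ) * (((n - v₁).factorial : ℝ) * ((n - v₂).factorial : ℝ)) ≤
        (((n - (v₁ + v₂)).factorial : ℝ) * ((n : ℝ) ^ v₁ * (n : ℝ) ^ v₂) *
          (B ^ G₁.edgeSet.ncard * B ^ G₂.edgeSet.ncard)) *
          (((n - v₁).factorial : ℝ) * ((n - v₂).factorial : ℝ)) := by
      calc (T : ℝ) * (((n - v₁).factorial : ℝ) * ((n - v₂).factorial : ℝ))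
          ≤ ((n - (v₁ + v₂)).factorial : ℝ) * ((T₁ : ℝ) * (T₂ : ℝ)) := hPR
        _ ≤ ((n - (v₁ + v₂)).factorial : ℝ) *
            ((((n - v₁).factorial : ℝ) * (n : ℝ) ^ v₁ * B ^ G₁.edgeSet.ncard) *
             (((n - v₂).factorial : ℝ) * (n : ℝ) ^ v₂ * B ^ G₂.edgeSet.ncard)) := by
            gcongr
        _ = _ := by ring
    exact le_of_mul_le_mul_right hfin (by positivity)

/-- Forests in a host of bounded degree: no hypothesis on expected counts is needed. -/
theorem forest_degree_bound (n : ℕ) (H : SimpleGraph (Fin n)) (Δ : ℕ)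
    (hΔ : ∀ v : Fin n, (H.neighborSet v).ncard ≤ Δ)
    (F : SimpleGraph (Fin n)) (hF : F.IsAcyclic) :
    (subCopies H F : ℝ) ≤ (copies F : ℝ) * (min 1 (8 * (Δ : ℝ) / n)) ^ F.edgeSet.ncard := by
  classical
  have hΔ' : ∀ v, (H.neighborFinset v).card ≤ Δ := by
    intro v
    have h := hΔ v
    rw [Set.ncard_eq_toFinset_card'] at h
    exact h
  have hQ := perm_count_forest H Δ hΔ' F.edgeSet.ncard F le_rfl hF
  set e := F.edgeSet.ncard with he
  set v := (supp F).card with hv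
  set T := (univ.filter (fun σ : Equiv.Perm (Fin n) => F.map σ.toEmbedding ≤ H)).card with hT
  have hv2 : v ≤ 2 * e := card_supp_le F
  have hvn : v ≤ n := by
    have h := card_le_univ (supp F)
    rw [Fintype.card_fin] at h
    exact h
  have h1 := pow_mul_factorial_le n v hvn
  have h2 : (v:ℝ) ^ v / (v.factorial : ℝ) ≤ Real.exp v :=
    Real.pow_div_factorial_le_exp v (by positivity) v
  have hvf : (0:ℝ) < (v.factorial : ℝ) := by positivity
  have h3 : ((n - v).factorial : ℝ) * (n:ℝ) ^ v ≤ Real.exp v * (n.factorial : ℝ) := by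
    have hfd : ((n - v).factorial : ℝ) * (n.descFactorial v : ℝ) = (n.factorial : ℝ) := by
      exact_mod_cast Nat.factorial_mul_descFactorial hvn
    have h1R : (n:ℝ) ^ v * (v.factorial : ℝ) ≤ (v:ℝ) ^ v * (n.descFactorial v : ℝ) := by
      exact_mod_cast h1
    rw [div_le_iff₀ hvf] at h2
    have h4 : (n:ℝ) ^ v ≤ Real.exp v * (n.descFactorial v : ℝ) := by
      have h5 : (n:ℝ) ^ v * (v.factorial : ℝ) ≤
          (Real.exp v * (n.descFactorial v : ℝ)) * (v.factorial : ℝ) := by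
        calc (n:ℝ) ^ v * (v.factorial : ℝ) ≤ (v:ℝ) ^ v * (n.descFactorial v : ℝ) := h1R
          _ ≤ (Real.exp v * (v.factorial : ℝ)) * (n.descFactorial v : ℝ) := by gcongr
          _ = (Real.exp v * (n.descFactorial v : ℝ)) * (v.factorial : ℝ) := by ring
      exact le_of_mul_le_mul_right h5 hvf
    calc ((n - v).factorial : ℝ) * (n:ℝ) ^ v
        ≤ ((n - v).factorial : ℝ) * (Real.exp v * (n.descFactorial v : ℝ)) := by gcongr
      _ = Real.exp v * (n.factorial : ℝ) := by rw [← hfd]; ring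
  have h5 : Real.exp v ≤ 8 ^ e := by
    have he1 : Real.exp (v:ℝ) = Real.exp 1 ^ v := by rw [← Real.exp_nat_mul, mul_one]
    have he0 : (1:ℝ) ≤ Real.exp 1 := Real.one_le_exp (by norm_num)
    have he2 : Real.exp 1 ^ v ≤ Real.exp 1 ^ (2 * e) := pow_le_pow_right₀ he0 hv2
    have he3 : Real.exp 1 ^ 2 ≤ 8 := by
      have h9 := Real.exp_one_lt_d9
      nlinarith [Real.exp_pos 1]
    calc Real.exp (v:ℝ) = Real.exp 1 ^ v := he1
      _ ≤ Real.exp 1 ^ (2 * e) := he2
      _ = (Real.exp 1 ^ 2) ^ e := by rw [pow_mul]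
      _ ≤ 8 ^ e := pow_le_pow_left₀ (by positivity) he3 e
  have hB0 : (0:ℝ) ≤ (Δ : ℝ) / n := by positivity
  have hTb : (T : ℝ) ≤ (n.factorial : ℝ) * (8 * Δ / n) ^ e := by
    calc (T : ℝ) ≤ ((n - v).factorial : ℝ) * (n:ℝ) ^ v * ((Δ : ℝ) / n) ^ e := hQ
      _ ≤ (Real.exp v * (n.factorial : ℝ)) * ((Δ : ℝ) / n) ^ e := by gcongr
      _ ≤ ((8:ℝ) ^ e * (n.factorial : ℝ)) * ((Δ : ℝ) / n) ^ e := by gcongr
      _ = (n.factorial : ℝ) * (8 * Δ / n) ^ e := by
          rw [mul_div_assoc, mul_pow (8:ℝ) ((Δ : ℝ) / n) e]; ring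
  have e1 := subCopies_mul_stab H F
  have e2 := copies_mul_stab F
  have hst := stab_pos F
  set stab := (univ.filter (fun τ : Equiv.Perm (Fin n) => F.map τ.toEmbedding = F)).card
    with hstab
  have e1R : (subCopies H F : ℝ) * (stab : ℝ) = (T : ℝ) := by exact_mod_cast e1
  have e2R : (copies F : ℝ) * (stab : ℝ) = (n.factorial : ℝ) := by exact_mod_cast e2
  have hstR : (0:ℝ) < (stab : ℝ) := by exact_mod_cast hst
  have hmain : (subCopies H F : ℝ) ≤ (copies F : ℝ) * (8 * Δ / n) ^ e := by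
    have hfin : (subCopies H F : ℝ) * (stab : ℝ) ≤
        ((copies F : ℝ) * (8 * Δ / n) ^ e) * (stab : ℝ) := by
      calc (subCopies H F : ℝ) * (stab : ℝ) = (T : ℝ) := e1R
        _ ≤ (n.factorial : ℝ) * (8 * Δ / n) ^ e := hTb
        _ = ((copies F : ℝ) * (8 * Δ / n) ^ e) * (stab : ℝ) := by rw [← e2R]; ring
    exact le_of_mul_le_mul_right hfin hstR
  have htriv : (subCopies H F : ℝ) ≤ (copies F : ℝ) := by
    have h6 : subCopies H F ≤ copies F := by
      unfold subCopies copies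
      apply Set.ncard_le_ncard _ (Set.toFinite _)
      rintro G ⟨_, σ, rfl⟩
      exact ⟨σ, rfl⟩
    exact_mod_cast h6
  rcases le_total 1 (8 * (Δ:ℝ) / n) with h | h
  · rw [min_eq_left h, one_pow, mul_one]; exact htriv
  · rw [min_eq_right h]; exact hmain

/-- Forests in the dense range: under the expectation hypothesis at `p`, with `3 n ≤ 2 ^ m` and
`11 n p ≤ m`, every forest has at most `N(K_n,F) (8 m / n)^{e(F)}` copies in `H`. -/
theorem dense_forest_bound (n : ℕ) (H : SimpleGraph (Fin n)) (m : ℕ) (hm1 : 3 * n ≤ 2 ^ m)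
    (p : ℝ) (hp : 0 ≤ p) (hm2 : 11 * (n:ℝ) * p ≤ m)
    (hE : ∀ F : SimpleGraph (Fin n), F ≤ H → 1 / 2 ≤ (copies F : ℝ) * p ^ F.edgeSet.ncard)
    (F : SimpleGraph (Fin n)) (hF : F.IsAcyclic) :
    (subCopies H F : ℝ) ≤ (copies F : ℝ) * (min 1 (8 * (m : ℝ) / n)) ^ F.edgeSet.ncard :=
  forest_degree_bound n H m (degree_le_of_hyp H p hp hE m hm1 hm2) F hF

end Vale.Agent.Lib.P064
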